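import Vale.Agent.Lib.P328.TwoRow

set_option linter.unusedSectionVars false

/-!
The heat bath chain on minors with two rows and two columns, and its mixing.
-/

namespace Vale.Agent.Lib.P328

open Finset Matrix Vale.Agent.Lib.P335

section ker

variable {Ω : Type*} [Fintype Ω]

/-- The kernel that moves to a uniform point of the class. -/
noncomputable def relKer (ρ : Ω → Ω → Prop) [DecidableRel ρ] (x y : Ω) : ℝ :=
  if ρ x y then 1 / ((univ.filter (ρ x)).card : ℝ) else 0

variable {ρ : Ω → Ω → Prop} [DecidableRel ρ]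

theorem relKer_nonneg (x y : Ω) : 0 ≤ relKer ρ x y := by
  unfold relKer
  split_ifs <;> positivity

theorem relKer_symm (hρ : Equivalence ρ) (x y : Ω) : relKer ρ x y = relKer ρ y x := by
  unfold relKer
  by_cases h : ρ x y
  · have h' : ρ y x := hρ.symm h
    rw [if_pos h, if_pos h', filter_eq_of_rel hρ h]
  · have h' : ¬ ρ y x := fun h' => h (hρ.symm h')
    rw [if_neg h, if_neg h']

theorem relKer_sum (hρ : Equivalence ρ) (x : Ω) : ∑ y, relKer ρ x y = 1 := by
  unfold relKer
  rw [← Finset.sum_filter, Finset.sum_const, nsmul_eq_mul]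
  have := card_class_pos hρ x
  field_simp

theorem relKer_mul_sum (hρ : Equivalence ρ) (g : Ω → ℝ) (x : Ω) :
    ∑ y, relKer ρ x y * g y = avg ρ g x := by
  unfold relKer avg
  rw [Finset.sum_div, ← Finset.sum_filter_add_sum_filter_not univ (ρ x)]
  have h1 : ∑ y ∈ univ.filter (fun y => ¬ ρ x y),
      (if ρ x y then 1 / ((univ.filter (ρ x)).card : ℝ) else 0) * g y = 0 := by
    apply Finset.sum_eq_zero
    intro y hy
    have : ¬ ρ x y := by simpa using hy
    simp [this]
  rw [h1, add_zero]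
  apply Finset.sum_congr rfl
  intro y hy
  have : ρ x y := by simpa using hy
  rw [if_pos this]
  ring

/-- The Dirichlet form of the kernel. -/
theorem relKer_form (hρ : Equivalence ρ) (f : Ω → ℝ) :
    (1 / 2) * ∑ x, ∑ y, relKer ρ x y * (f x - f y) ^ 2 = (f - avg ρ f) ⬝ᵥ (f - avg ρ f) := by
  have h1 : ∀ x, ∑ y, relKer ρ x y * (f x - f y) ^ 2
      = f x * f x - 2 * (f x * avg ρ f x) + avg ρ (fun y => f y * f y) x := by
    intro x
    have e : ∀ y, relKer ρ x y * (f x - f y) ^ 2
        = f x * f x * relKer ρ x y - 2 * f x * (relKer ρ x y * f y)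
          + relKer ρ x y * (f y * f y) := by
      intro y
      ring
    simp only [e]
    rw [Finset.sum_add_distrib, Finset.sum_sub_distrib, ← Finset.mul_sum, ← Finset.mul_sum,
      relKer_sum hρ, relKer_mul_sum hρ, relKer_mul_sum hρ]
    ring
  simp only [h1]
  have h2 : ∑ x, avg ρ (fun y => f y * f y) x = f ⬝ᵥ f := by
    rw [sum_avg hρ]
    rfl
  have h3 : ∑ x, f x * avg ρ f x = f ⬝ᵥ avg ρ f := rfl
  rw [Finset.sum_add_distrib, Finset.sum_sub_distrib, h2, ← Finset.mul_sum, h3]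
  have h4 : ∑ x, f x * f x = f ⬝ᵥ f := rfl
  rw [h4]
  simp only [sub_dotProduct, dotProduct_sub]
  have h5 := avg_dot_avg hρ f
  rw [dotProduct_comm (avg ρ f) f, h5]
  ring

end ker

variable {ι κ : Type*} [Fintype ι] [DecidableEq ι] [Fintype κ] [DecidableEq κ]

/-- Heat bath chain on minors: with probability `1/2` stay; otherwise choose `k`, `l` in the rows
and `j`, `j'` in the columns uniformly, and replace the table by a uniform table which differs
from it at most on the minor with rows `k`, `l` and columns `j`, `j'`. -/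
noncomputable def chain (r : ι → ℕ) (c : κ → ℕ) : Matrix (Tab r c) (Tab r c) ℝ := fun x y =>
  (1 / 2) * (if x = y then 1 else 0)
    + (1 / 2) * (1 / ((Fintype.card ι : ℝ) ^ 2 * (Fintype.card κ : ℝ) ^ 2))
      * ∑ k, ∑ l, ∑ j, ∑ j', relKer (cellRel k l j j') x y

variable {r : ι → ℕ} {c : κ → ℕ}

theorem chain_nonneg (x y : Tab r c) : 0 ≤ chain r c x y := by
  unfold chain
  have h1 : 0 ≤ ∑ k, ∑ l, ∑ j, ∑ j', relKer (cellRel (r := r) (c := c) k l j j') x y :=
    Finset.sum_nonneg fun _ _ => Finset.sum_nonneg fun _ _ => Finset.sum_nonneg fun _ _ =>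
      Finset.sum_nonneg fun _ _ => relKer_nonneg x y
  have h2 : (0 : ℝ) ≤ if x = y then 1 else 0 := by split_ifs <;> norm_num
  positivity

theorem chain_lazy (x : Tab r c) : 1 / 2 ≤ chain r c x x := by
  unfold chain
  have h1 : 0 ≤ ∑ k, ∑ l, ∑ j, ∑ j', relKer (cellRel (r := r) (c := c) k l j j') x x :=
    Finset.sum_nonneg fun _ _ => Finset.sum_nonneg fun _ _ => Finset.sum_nonneg fun _ _ =>
      Finset.sum_nonneg fun _ _ => relKer_nonneg x x
  simp only [if_true, mul_one]
  have h3 : 0 ≤ (1 / 2) * (1 / ((Fintype.card ι : ℝ) ^ 2 * (Fintype.card κ : ℝ) ^ 2))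
      * ∑ k, ∑ l, ∑ j, ∑ j', relKer (cellRel (r := r) (c := c) k l j j') x x := by positivity
  linarith

theorem chain_symm (x y : Tab r c) : chain r c x y = chain r c y x := by
  unfold chain
  have h1 : ∀ k l j j', relKer (cellRel (r := r) (c := c) k l j j') x y
      = relKer (cellRel k l j j') y x := fun k l j j' => relKer_symm (cellRel_equiv k l j j') x y
  simp only [h1, eq_comm]

theorem chain_row [Nonempty ι] [Nonempty κ] (x : Tab r c) : ∑ y, chain r c x y = 1 := by
  unfold chain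
  rw [Finset.sum_add_distrib, ← Finset.mul_sum, ← Finset.mul_sum]
  have h1 : ∑ y, (if x = y then (1 : ℝ) else 0) = 1 := by simp
  have h2 : ∑ y, ∑ k, ∑ l, ∑ j, ∑ j', relKer (cellRel (r := r) (c := c) k l j j') x y
      = (Fintype.card ι : ℝ) ^ 2 * (Fintype.card κ : ℝ) ^ 2 := by
    rw [Finset.sum_comm]
    simp_rw [fun k => Finset.sum_comm (s := (univ : Finset (Tab r c))) (t := (univ : Finset ι))
      (f := fun y l => ∑ j, ∑ j', relKer (cellRel (r := r) (c := c) k l j j') x y)]
    simp_rw [fun k l => Finset.sum_comm (s := (univ : Finset (Tab r c))) (t := (univ : Finset κ))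
      (f := fun y j => ∑ j', relKer (cellRel (r := r) (c := c) k l j j') x y)]
    simp_rw [fun k l j => Finset.sum_comm (s := (univ : Finset (Tab r c))) (t := (univ : Finset κ))
      (f := fun y j' => relKer (cellRel (r := r) (c := c) k l j j') x y)]
    simp only [fun k l j j' => relKer_sum (cellRel_equiv (r := r) (c := c) k l j j') x]
    simp only [Finset.sum_const, Finset.card_univ, nsmul_eq_mul, mul_one]
    ring
  rw [h1, h2]
  have hι : (0 : ℝ) < Fintype.card ι := by exact_mod_cast Fintype.card_pos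
  have hκ : (0 : ℝ) < Fintype.card κ := by exact_mod_cast Fintype.card_pos
  field_simp
  norm_num

/-- The Dirichlet form of the chain. -/
theorem chain_form (f : Tab r c → ℝ) :
    (1 / 2) * ∑ x, ∑ y, chain r c x y * (f x - f y) ^ 2
      = (1 / 2) * (1 / ((Fintype.card ι : ℝ) ^ 2 * (Fintype.card κ : ℝ) ^ 2))
        * ∑ k, ∑ l, ∑ j, ∑ j', qC k l j j' f ⬝ᵥ qC k l j j' f := by
  set C : ℝ := (1 / 2) * (1 / ((Fintype.card ι : ℝ) ^ 2 * (Fintype.card κ : ℝ) ^ 2)) with hC
  have h1 : ∀ x y, chain r c x y * (f x - f y) ^ 2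
      = C * ∑ k, ∑ l, ∑ j, ∑ j', relKer (cellRel (r := r) (c := c) k l j j') x y * (f x - f y) ^ 2 := by
    intro x y
    unfold chain
    by_cases hxy : x = y
    · subst hxy
      simp
    · simp only [hxy, if_false, mul_zero, zero_add]
      simp only [Finset.mul_sum, Finset.sum_mul, ← hC, mul_assoc]
  simp only [h1, ← Finset.mul_sum]
  have h2 : ∑ x, ∑ y, ∑ k, ∑ l, ∑ j, ∑ j',
        relKer (cellRel (r := r) (c := c) k l j j') x y * (f x - f y) ^ 2
      = ∑ k, ∑ l, ∑ j, ∑ j', ∑ x, ∑ y,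
        relKer (cellRel (r := r) (c := c) k l j j') x y * (f x - f y) ^ 2 := by
    have hs : ∀ (g : ι → ι → κ → κ → Tab r c → Tab r c → ℝ),
        ∑ x, ∑ y, ∑ k, ∑ l, ∑ j, ∑ j', g k l j j' x y
          = ∑ k, ∑ l, ∑ j, ∑ j', ∑ x, ∑ y, g k l j j' x y := by
      intro g
      calc ∑ x, ∑ y, ∑ k, ∑ l, ∑ j, ∑ j', g k l j j' x y
          = ∑ x, ∑ k, ∑ y, ∑ l, ∑ j, ∑ j', g k l j j' x y := by
            apply Finset.sum_congr rfl; intro x _
            exact Finset.sum_comm
        _ = ∑ k, ∑ x, ∑ y, ∑ l, ∑ j, ∑ j', g k l j j' x y := Finset.sum_comm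
        _ = ∑ k, ∑ l, ∑ j, ∑ j', ∑ x, ∑ y, g k l j j' x y := by
            apply Finset.sum_congr rfl; intro k _
            calc ∑ x, ∑ y, ∑ l, ∑ j, ∑ j', g k l j j' x y
                = ∑ x, ∑ l, ∑ y, ∑ j, ∑ j', g k l j j' x y := by
                  apply Finset.sum_congr rfl; intro x _
                  exact Finset.sum_comm
              _ = ∑ l, ∑ x, ∑ y, ∑ j, ∑ j', g k l j j' x y := Finset.sum_comm
              _ = ∑ l, ∑ j, ∑ j', ∑ x, ∑ y, g k l j j' x y := by
                  apply Finset.sum_congr rfl; intro l _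
                  calc ∑ x, ∑ y, ∑ j, ∑ j', g k l j j' x y
                      = ∑ x, ∑ j, ∑ y, ∑ j', g k l j j' x y := by
                        apply Finset.sum_congr rfl; intro x _
                        exact Finset.sum_comm
                    _ = ∑ j, ∑ x, ∑ y, ∑ j', g k l j j' x y := Finset.sum_comm
                    _ = ∑ j, ∑ j', ∑ x, ∑ y, g k l j j' x y := by
                        apply Finset.sum_congr rfl; intro j _
                        calc ∑ x, ∑ y, ∑ j', g k l j j' x y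
                            = ∑ x, ∑ j', ∑ y, g k l j j' x y := by
                              apply Finset.sum_congr rfl; intro x _
                              exact Finset.sum_comm
                          _ = ∑ j', ∑ x, ∑ y, g k l j j' x y := Finset.sum_comm
    exact hs _
  rw [h2]
  have h3 : ∀ k l j j', ∑ x, ∑ y,
      relKer (cellRel (r := r) (c := c) k l j j') x y * (f x - f y) ^ 2
      = 2 * (qC k l j j' f ⬝ᵥ qC k l j j' f) := by
    intro k l j j'
    have := relKer_form (cellRel_equiv (r := r) (c := c) k l j j') f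
    unfold qC
    linarith
  simp only [h3, ← Finset.mul_sum]
  ring

theorem var_nonneg (f : Tab r c → ℝ) : 0 ≤ f ⬝ᵥ f - avg relTop f ⬝ᵥ avg relTop f := by
  have h0 := dot_self_nonneg (f - avg relTop f)
  simp only [sub_dotProduct, dotProduct_sub] at h0
  have := avg_dot_avg (relTop_equiv (Ω := Tab r c)) f
  rw [dotProduct_comm (avg relTop f) f, this] at h0
  linarith

/-- The spectral gap of the chain. -/
theorem chain_gap [Nonempty ι] [Nonempty κ] (hT : AllT3 r c) (f : Tab r c → ℝ) :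
    (1 / ((Fintype.card ι : ℝ) ^ 2 * (Fintype.card κ : ℝ) ^ 2))
        * (f ⬝ᵥ f - avg relTop f ⬝ᵥ avg relTop f)
      ≤ (1 / 2) * ∑ x, ∑ y, chain r c x y * (f x - f y) ^ 2 := by
  rw [chain_form]
  have h := minor_gap hT f
  have hv := var_nonneg f
  have hι : (0 : ℝ) < Fintype.card ι := by exact_mod_cast Fintype.card_pos
  have hκ : (0 : ℝ) < Fintype.card κ := by exact_mod_cast Fintype.card_pos
  have hM : 0 < 1 / ((Fintype.card ι : ℝ) ^ 2 * (Fintype.card κ : ℝ) ^ 2) := by positivity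
  set M := 1 / ((Fintype.card ι : ℝ) ^ 2 * (Fintype.card κ : ℝ) ^ 2) with hMdef
  set S := ∑ k, ∑ l, ∑ j, ∑ j', qC (r := r) (c := c) k l j j' f ⬝ᵥ qC k l j j' f with hS
  have h4 : 4 * (f ⬝ᵥ f - avg relTop f ⬝ᵥ avg relTop f) ≤ S := by linarith
  have h5 : M * (4 * (f ⬝ᵥ f - avg relTop f ⬝ᵥ avg relTop f)) ≤ M * S :=
    mul_le_mul_of_nonneg_left h4 hM.le
  nlinarith [mul_nonneg hM.le hv]

/-- `(1 - 1 / K) ^ K ≤ 1 / 2`. -/
theorem pow_half_bound' {K : ℕ} (hK : 0 < K) : (1 - 1 / (K : ℝ)) ^ K ≤ 1 / 2 := by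
  have h1 : (1 : ℝ) ≤ K := by exact_mod_cast hK
  have h2 := Real.one_sub_div_pow_le_exp_neg (n := K) (t := 1) h1
  have h3 : Real.exp (-1) ≤ 1 / 2 := by
    rw [Real.exp_neg, one_div]
    have h4 := Real.add_one_le_exp (1 : ℝ)
    apply inv_anti₀ (by norm_num)
    linarith
  linarith

/-- The number of tables. -/
theorem card_tab_le (r : ι → ℕ) (c : κ → ℕ) :
    Fintype.card (Tab r c) ≤ (∑ i, r i + 1) ^ (Fintype.card ι * Fintype.card κ) := by
  have hb : ∀ (x : Tab r c) (i : ι) (j : κ), x.1 i j < ∑ i, r i + 1 := by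
    intro x i j
    have h1 : x.1 i j ≤ r i := by
      rw [← x.2.1 i]
      exact Finset.single_le_sum (f := fun b => x.1 i b) (fun _ _ => Nat.zero_le _) (mem_univ j)
    have h2 : r i ≤ ∑ i, r i :=
      Finset.single_le_sum (f := r) (fun _ _ => Nat.zero_le _) (mem_univ i)
    omega
  let F : Tab r c → (ι → κ → Fin (∑ i, r i + 1)) := fun x i j => ⟨x.1 i j, hb x i j⟩
  have hF : Function.Injective F := by
    intro x y h
    apply Subtype.ext
    funext i j
    have := congrFun (congrFun h i) j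
    simpa [F] using this
  have := Fintype.card_le_of_injective F hF
  simp only [Fintype.card_fun, Fintype.card_fin, ← pow_mul] at this
  rwa [mul_comm] at this

/-- The time bound for the chain. -/
noncomputable def mixT (ι κ : Type*) [Fintype ι] [Fintype κ] (r : ι → ℕ) : ℕ :=
  (Fintype.card ι) ^ 2 * (Fintype.card κ) ^ 2
    * (Nat.clog 2 (∑ i, r i + 1) * (Fintype.card ι * Fintype.card κ) + 2)

/-- The three row condition implies that the chain mixes within the time bound. -/
theorem chain_mixing [Nonempty ι] [Nonempty κ] (hT : AllT3 r c) (x₀ : Tab r c) (t : ℕ)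
    (ht : mixT ι κ r ≤ t) :
    (1 / 2) * ∑ y, |(chain r c ^ t) x₀ y - 1 / (Fintype.card (Tab r c) : ℝ)| ≤ 1 / 4 := by
  haveI : Nonempty (Tab r c) := ⟨x₀⟩
  have hι : 0 < Fintype.card ι := Fintype.card_pos
  have hκ : 0 < Fintype.card κ := Fintype.card_pos
  set K : ℕ := (Fintype.card ι) ^ 2 * (Fintype.card κ) ^ 2 with hK
  have hKpos : 0 < K := by positivity
  have hKcast : (K : ℝ) = (Fintype.card ι : ℝ) ^ 2 * (Fintype.card κ : ℝ) ^ 2 := by
    rw [hK]
    push_cast
    ring
  have hK1 : (1 : ℝ) ≤ K := by exact_mod_cast hKpos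
  have hγ1 : 1 / ((Fintype.card ι : ℝ) ^ 2 * (Fintype.card κ : ℝ) ^ 2) ≤ 1 := by
    rw [← hKcast, div_le_one (by linarith)]
    exact hK1
  refine mixing_of_gap (chain r c) chain_nonneg chain_lazy
    (1 / ((Fintype.card ι : ℝ) ^ 2 * (Fintype.card κ : ℝ) ^ 2)) chain_symm chain_row hγ1
    (fun f => chain_gap hT f) t ?_ x₀
  rw [← hKcast]
  have h0 : 0 ≤ 1 - 1 / (K : ℝ) := by
    rw [sub_nonneg, div_le_one (by linarith)]
    exact hK1
  have h1 : (1 - 1 / (K : ℝ)) ≤ 1 := by
    have : 0 ≤ 1 / (K : ℝ) := by positivity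
    linarith
  set L : ℕ := Nat.clog 2 (∑ i, r i + 1) * (Fintype.card ι * Fintype.card κ) with hL
  have hmix : mixT ι κ r = K * (L + 2) := rfl
  have h2 : (1 - 1 / (K : ℝ)) ^ t ≤ (1 - 1 / (K : ℝ)) ^ (K * (L + 2)) :=
    pow_le_pow_of_le_one h0 h1 (by rw [← hmix]; exact ht)
  have h3 : (1 - 1 / (K : ℝ)) ^ (K * (L + 2)) ≤ (1 / 2) ^ (L + 2) := by
    rw [pow_mul]
    exact pow_le_pow_left₀ (pow_nonneg h0 _) (pow_half_bound' hKpos) _
  have h4 : (Fintype.card (Tab r c) : ℝ) ≤ 2 ^ L := by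
    have h5 := card_tab_le r c
    have h6 : ∑ i, r i + 1 ≤ 2 ^ Nat.clog 2 (∑ i, r i + 1) := Nat.le_pow_clog (by norm_num) _
    have h7 : (∑ i, r i + 1) ^ (Fintype.card ι * Fintype.card κ) ≤ 2 ^ L := by
      rw [hL, pow_mul 2 (Nat.clog 2 (∑ i, r i + 1))]
      exact Nat.pow_le_pow_left h6 _
    exact_mod_cast h5.trans h7
  calc (Fintype.card (Tab r c) : ℝ) * (1 - 1 / (K : ℝ)) ^ t
      ≤ 2 ^ L * (1 / 2) ^ (L + 2) := by
        apply mul_le_mul h4 (h2.trans h3) (pow_nonneg h0 _) (by positivity)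
    _ = 1 / 4 := by
        rw [pow_add]
        have : (2 : ℝ) ^ L * (1 / 2) ^ L = 1 := by
          rw [← mul_pow]
          norm_num
        calc (2 : ℝ) ^ L * ((1 / 2) ^ L * (1 / 2) ^ 2)
            = ((2 : ℝ) ^ L * (1 / 2) ^ L) * (1 / 2) ^ 2 := by ring
          _ = 1 / 4 := by rw [this]; norm_num

end Vale.Agent.Lib.P328
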