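import Vale.Agent.Lib.P328.Reduce

/-!
The finite check for three rows of sum two.
-/

namespace Vale.Agent.Lib.P328

theorem check222 : checkR 2 2 2 = true := by decide +kernel

end Vale.Agent.Lib.P328
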