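import Vale.Agent.Lib.P328.Reduce

/-!
The finite check for the other row sums at most two.
-/

namespace Vale.Agent.Lib.P328

/-- All triples with entries at most two, except `(2, 2, 2)`. -/
def restTriples : List (ℕ × ℕ × ℕ) :=
  (((List.range 3).flatMap fun a => (List.range 3).flatMap fun b => (List.range 3).map fun d =>
    (a, b, d))).filter fun t => t != (2, 2, 2)

theorem checkRest : restTriples.all (fun t => checkR t.1 t.2.1 t.2.2) = true := by decide +kernel

end Vale.Agent.Lib.P328
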