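import Vale.Agent.Lib.P328.Tab

set_option linter.unusedSectionVars false

/-!
Any two tables with the same margins are connected by moves on two rows and two columns,
each move strictly decreasing the `ℓ¹` distance to the target.
-/

namespace Vale.Agent.Lib.P328

open Finset Matrix Vale.Agent.Lib.P335

variable {ι κ : Type*} [Fintype ι] [DecidableEq ι] [Fintype κ] [DecidableEq κ]
variable {r : ι → ℕ} {c : κ → ℕ}

/-- One unit moved around the minor with rows `i`, `i'` and columns `j`, `k`. -/
def moveVal (i i' : ι) (j k : κ) (x : ι → κ → ℕ) : ι → κ → ℕ := fun a b =>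
  x a b + (if (a = i ∧ b = k) ∨ (a = i' ∧ b = j) then 1 else 0)
    - (if (a = i ∧ b = j) ∨ (a = i' ∧ b = k) then 1 else 0)

theorem sum_eq_of_shift {α : Type*} [Fintype α] [DecidableEq α] (g h : α → ℕ) (p q : α)
    (H : ∀ b, g b + (if b = p then 1 else 0) = h b + (if b = q then 1 else 0)) :
    ∑ b, g b = ∑ b, h b := by
  have h1 : ∑ b, (g b + (if b = p then 1 else 0)) = ∑ b, (h b + (if b = q then 1 else 0)) :=
    Finset.sum_congr rfl (fun b _ => H b)
  simp only [Finset.sum_add_distrib, Finset.sum_ite_eq', Finset.mem_univ, if_true] at h1
  omega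

theorem move_isTab {i i' : ι} {j k : κ} (hi : i ≠ i') (hj : j ≠ k) {x : ι → κ → ℕ}
    (hx : IsTab r c x) (h1 : 1 ≤ x i j) (h2 : 1 ≤ x i' k) : IsTab r c (moveVal i i' j k x) := by
  constructor
  · intro a
    rw [← hx.1 a]
    by_cases ha : a = i
    · subst ha
      apply sum_eq_of_shift _ _ j k
      intro b
      unfold moveVal
      by_cases hb : b = j
      · subst hb
        simp [hi, hj]
        omega
      · by_cases hb' : b = k
        · subst hb'
          simp [hi, Ne.symm hj]
        · simp [hi, hb, hb']
    · by_cases ha' : a = i'
      · subst ha'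
        apply sum_eq_of_shift _ _ k j
        intro b
        unfold moveVal
        by_cases hb : b = j
        · subst hb
          simp [ha, hj]
        · by_cases hb' : b = k
          · subst hb'
            simp [ha, Ne.symm hj]
            omega
          · simp [ha, hb, hb']
      · apply Finset.sum_congr rfl
        intro b _
        unfold moveVal
        simp [ha, ha']
  · intro b
    rw [← hx.2 b]
    by_cases hb : b = j
    · subst hb
      apply sum_eq_of_shift _ _ i i'
      intro a
      unfold moveVal
      by_cases ha : a = i
      · subst ha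
        simp [hi, hj]
        omega
      · by_cases ha' : a = i'
        · subst ha'
          simp [Ne.symm hi, hj]
        · simp [ha, ha']
    · by_cases hb' : b = k
      · subst hb'
        apply sum_eq_of_shift _ _ i' i
        intro a
        unfold moveVal
        by_cases ha : a = i
        · subst ha
          simp [hi, hj, Ne.symm hj]
        · by_cases ha' : a = i'
          · subst ha'
            simp [ha, hb]
            omega
          · simp [ha, ha']
      · apply Finset.sum_congr rfl
        intro a _
        unfold moveVal
        simp [hb, hb']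

/-- `ℓ¹` distance of tables. -/
def dist1 (x y : ι → κ → ℕ) : ℕ := ∑ a, ∑ b, ((x a b : ℤ) - (y a b : ℤ)).natAbs

theorem exists_lt_gt_of_sum_eq {α : Type*} [Fintype α] {u v : α → ℕ} (hs : ∑ b, u b = ∑ b, v b)
    (hne : u ≠ v) : (∃ j, v j < u j) ∧ ∃ k, u k < v k := by
  have hex : ∃ b, u b ≠ v b := by
    by_contra h
    push Not at h
    exact hne (funext h)
  obtain ⟨b, hb⟩ := hex
  constructor
  · by_contra h
    push Not at h
    have hlt : u b < v b := lt_of_le_of_ne (h b) hb
    have := Finset.sum_lt_sum (s := univ) (f := u) (g := v) (fun i _ => h i) ⟨b, mem_univ b, hlt⟩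
    omega
  · by_contra h
    push Not at h
    have hlt : v b < u b := lt_of_le_of_ne (h b) (Ne.symm hb)
    have := Finset.sum_lt_sum (s := univ) (f := v) (g := u) (fun i _ => h i) ⟨b, mem_univ b, hlt⟩
    omega

theorem dist1_move_lt {i i' : ι} {j k : κ} (hi : i ≠ i') (hj : j ≠ k) {x y : ι → κ → ℕ}
    (h1 : y i j < x i j) (h2 : x i k < y i k) (h3 : y i' k < x i' k) :
    dist1 (moveVal i i' j k x) y < dist1 x y := by
  have key : ∀ a b, ((moveVal i i' j k x a b : ℤ) - (y a b : ℤ)).natAbs
      + ((if a = i then (if b = j then 1 else 0) else 0) + (if a = i then (if b = k then 1 else 0) else 0)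
        + (if a = i' then (if b = k then 1 else 0) else 0))
      ≤ ((x a b : ℤ) - (y a b : ℤ)).natAbs + (if a = i' then (if b = j then 1 else 0) else 0) := by
    intro a b
    unfold moveVal
    by_cases ha : a = i
    · subst ha
      by_cases hb : b = j
      · subst hb
        simp [hi, hj]
        omega
      · by_cases hb' : b = k
        · subst hb'
          simp [hi, Ne.symm hj]
          omega
        · simp [hi, hb, hb']
    · by_cases ha' : a = i'
      · subst ha'
        by_cases hb : b = j
        · subst hb
          simp [ha, hj]
          omega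
        · by_cases hb' : b = k
          · subst hb'
            simp [ha, Ne.symm hj]
            omega
          · simp [ha, hb, hb']
      · simp [ha, ha']
  have hsum := Finset.sum_le_sum (fun a (_ : a ∈ univ) =>
    Finset.sum_le_sum (fun b (_ : b ∈ univ) => key a b))
  simp only [Finset.sum_add_distrib] at hsum
  have e : ∀ (p : ι) (q : κ), (∑ a, ∑ b, (if a = p then (if b = q then 1 else 0) else 0) : ℕ) = 1 := by
    intro p q
    have : ∀ a, (∑ b, (if a = p then (if b = q then 1 else 0) else 0) : ℕ)
        = if a = p then 1 else 0 := by
      intro a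
      by_cases ha : a = p
      · simp [ha]
      · simp [ha]
    simp [this]
  simp only [e] at hsum
  unfold dist1
  omega

/-- Functions invariant under changes of two rows are constant. -/
theorem conn_pairs (f : Tab r c → ℝ) (hf : ∀ k l, Meas (agree {k, l}) f) (x y : Tab r c) :
    f x = f y := by
  induction hn : dist1 x.1 y.1 using Nat.strong_induction_on generalizing x with
  | _ n ih =>
    by_cases hxy : x = y
    · rw [hxy]
    · have hrow : ∃ i, x.1 i ≠ y.1 i := by
        by_contra h
        push Not at h
        exact hxy (Subtype.ext (funext h))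
      obtain ⟨i, hi⟩ := hrow
      have hs : ∑ b, x.1 i b = ∑ b, y.1 i b := by rw [x.2.1 i, y.2.1 i]
      obtain ⟨⟨j, hj⟩, ⟨k, hk⟩⟩ := exists_lt_gt_of_sum_eq hs hi
      have hjk : j ≠ k := by
        rintro rfl
        omega
      have hcol : ∃ i', y.1 i' k < x.1 i' k := by
        by_contra h
        push Not at h
        have := Finset.sum_lt_sum (s := univ) (f := fun a => x.1 a k) (g := fun a => y.1 a k)
          (fun a _ => h a) ⟨i, mem_univ i, hk⟩
        rw [x.2.2 k, y.2.2 k] at this
        omega
      obtain ⟨i', hi'⟩ := hcol
      have hii' : i ≠ i' := by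
        rintro rfl
        omega
      have hm : IsTab r c (moveVal i i' j k x.1) :=
        move_isTab hii' hjk x.2 (by omega) (by omega)
      have hagree : agree {i, i'} x ⟨_, hm⟩ := by
        intro a ha
        simp only [mem_insert, mem_singleton, not_or] at ha
        funext b
        simp [moveVal, ha.1, ha.2]
      rw [hf i i' x ⟨_, hm⟩ hagree]
      exact ih _ (by rw [← hn]; exact dist1_move_lt hii' hjk hj hk hi') ⟨_, hm⟩ rfl

end Vale.Agent.Lib.P328
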