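import Vale.Agent.Lib.P328.Glue

set_option linter.unusedSectionVars false

/-!
The three row condition for tables with two columns.
-/

namespace Vale.Agent.Lib.P328

open Finset Matrix Vale.Agent.Lib.P335

section operator

variable {κ : Type*} [Fintype κ] [DecidableEq κ] {r₃ : Fin 3 → ℕ} {c₃ : κ → ℕ}

/-- The operator form implies the three row condition. -/
theorem T3_of_operator (H : ∀ h : Tab r₃ c₃ → ℝ,
    ∑ e, avg (rRow e) h ⬝ᵥ avg (rRow e) h ≤ 2 * (h ⬝ᵥ h) + avg relTop h ⬝ᵥ avg relTop h) :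
    T3 r₃ c₃ := by
  intro g hg
  set m : Fin 3 → Tab r₃ c₃ → ℝ := fun e => avg relTop (g e) with hm
  set g0 : Fin 3 → Tab r₃ c₃ → ℝ := fun e => g e - m e with hg0
  set F := ∑ e, g0 e with hF
  have hmm : ∀ e, avg relTop (g0 e) = 0 := by
    intro e
    simp only [hg0, hm]
    rw [avg_sub, avg_avg relTop_equiv, sub_self]
  have hmF : avg relTop F = 0 := by
    rw [hF, avg_sum]
    simp [hmm]
  have hg0m : ∀ e, Meas (rRow e) (g0 e) := by
    intro e
    apply meas_sub (hg e)
    intro x y _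
    exact avg_meas relTop_equiv (g e) x y trivial
  have hK := H F
  rw [hmF] at hK
  simp only [dotProduct_zero, add_zero] at hK
  have h1 : F ⬝ᵥ F = ∑ e, avg (rRow e) F ⬝ᵥ g0 e := by
    conv_lhs => rw [hF, dotProduct_sum]
    apply Finset.sum_congr rfl
    intro e _
    rw [← hF, avg_dot_meas (rRow_equiv e) F (hg0m e)]
  have h2 : ∀ e, avg (rRow e) F ⬝ᵥ g0 e
      ≤ (1 / 4) * (avg (rRow e) F ⬝ᵥ avg (rRow e) F) + g0 e ⬝ᵥ g0 e :=
    fun e => dot_le_quarter _ _
  have h3 := Finset.sum_le_sum (fun e (_ : e ∈ univ) => h2 e)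
  rw [← h1, Finset.sum_add_distrib, ← Finset.mul_sum] at h3
  have hFle : F ⬝ᵥ F ≤ 2 * ∑ e, g0 e ⬝ᵥ g0 e := by linarith
  -- relation of the variances
  have hvar : ∀ u : Tab r₃ c₃ → ℝ, u ⬝ᵥ u - avg relTop u ⬝ᵥ avg relTop u
      = (u - avg relTop u) ⬝ᵥ (u - avg relTop u) := by
    intro u
    have := avg_dot_avg (relTop_equiv (Ω := Tab r₃ c₃)) u
    simp only [sub_dotProduct, dotProduct_sub]
    rw [dotProduct_comm (avg relTop u) u, this]
    ring
  have hsum : (∑ e, g e) - avg relTop (∑ e, g e) = F := by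
    rw [avg_sum, hF, ← Finset.sum_sub_distrib]
  rw [hvar, hsum]
  have : ∀ e, g e ⬝ᵥ g e - avg relTop (g e) ⬝ᵥ avg relTop (g e) = g0 e ⬝ᵥ g0 e := fun e => hvar (g e)
  simp only [this]
  exact hFle

end operator

section two
variable {r : Fin 3 → ℕ} {c : Fin 2 → ℕ}

/-- The first column entry of a row. -/
def aS (e : Fin 3) (x : Tab r c) : ℕ := x.1 e 0

theorem row_eq (x : Tab r c) (e : Fin 3) : x.1 e 0 + x.1 e 1 = r e := by
  have := x.2.1 e
  rwa [Fin.sum_univ_two] at this

theorem col0 (x : Tab r c) : x.1 0 0 + x.1 1 0 + x.1 2 0 = c 0 := by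
  have := x.2.2 0
  rwa [Fin.sum_univ_three] at this

theorem col1 (x : Tab r c) : x.1 0 1 + x.1 1 1 + x.1 2 1 = c 1 := by
  have := x.2.2 1
  rwa [Fin.sum_univ_three] at this

/-- A table from its first column. -/
def mkVal (r : Fin 3 → ℕ) (p : Fin 3 → ℕ) : Fin 3 → Fin 2 → ℕ :=
  fun s j => if j = 0 then p s else r s - p s

theorem mk_isTab (x₀ : Tab r c) (p : Fin 3 → ℕ) (hp : ∀ s, p s ≤ r s)
    (hs : p 0 + p 1 + p 2 = c 0) : IsTab r c (mkVal r p) := by
  constructor
  · intro s
    rw [Fin.sum_univ_two]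
    simp only [mkVal, if_true, one_ne_zero, if_false]
    have := hp s
    omega
  · intro j
    rw [Fin.sum_univ_three]
    fin_cases j
    · simp only [mkVal, Fin.zero_eta, Fin.isValue, if_true]
      exact hs
    · simp only [mkVal, Fin.mk_one, Fin.isValue, one_ne_zero, if_false]
      have h0 := col0 x₀
      have h1 := col1 x₀
      have r0 := row_eq x₀ 0
      have r1 := row_eq x₀ 1
      have r2 := row_eq x₀ 2
      have := hp 0
      have := hp 1
      have := hp 2
      omega

theorem tab_ext_of_first {x y : Tab r c} (h : ∀ s, x.1 s 0 = y.1 s 0) : x = y := by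
  apply Subtype.ext
  funext s j
  fin_cases j
  · exact h s
  · have h1 := row_eq x s
    have h2 := row_eq y s
    have h3 := h s
    show x.1 s 1 = y.1 s 1
    omega

theorem rRow_iff (e : Fin 3) (x y : Tab r c) : rRow e x y ↔ sameVal (aS e) x y := by
  constructor
  · intro h
    show x.1 e 0 = y.1 e 0
    rw [show x.1 e = y.1 e from h]
  · intro h
    have h0 : x.1 e 0 = y.1 e 0 := h
    have h1 := row_eq x e
    have h2 := row_eq y e
    show x.1 e = y.1 e
    funext j
    fin_cases j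
    · exact h0
    · show x.1 e 1 = y.1 e 1
      omega

theorem avg_congr_rel' {Ω : Type*} [Fintype Ω] {ρ ρ' : Ω → Ω → Prop} [DecidableRel ρ]
    [DecidableRel ρ'] (h : ∀ x y, ρ x y ↔ ρ' x y) (f : Ω → ℝ) : avg ρ f = avg ρ' f := by
  funext x
  unfold avg
  have : univ.filter (ρ x) = univ.filter (ρ' x) := by
    ext y
    simp only [mem_filter, mem_univ, true_and, h]
  rw [this]

/-- No holes in the values of a statistic. -/
theorem aS_hI (i : Fin 3) (x w : Tab r c) (h : aS i x < aS i w) : ∃ x₁ : Tab r c, aS i x₁ = aS i x + 1 := by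
  have hx := col0 x
  have hw := col0 w
  have hri := row_eq w i
  have hxi := row_eq x i
  have h' : x.1 i 0 < w.1 i 0 := h
  -- another index with positive entry in column zero
  have hex : ∃ l, l ≠ i ∧ 1 ≤ x.1 l 0 := by
    by_contra hne
    push Not at hne
    have h0 : ∀ l, l ≠ i → x.1 l 0 = 0 := fun l hl => by
      have := hne l hl
      omega
    fin_cases i
    · have a1 := h0 1 (by decide)
      have a2 := h0 2 (by decide)
      simp only [Fin.zero_eta, Fin.isValue] at h' hxi hri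
      omega
    · have a1 := h0 0 (by decide)
      have a2 := h0 2 (by decide)
      simp only [Fin.mk_one, Fin.isValue] at h' hxi hri
      omega
    · have a1 := h0 0 (by decide)
      have a2 := h0 1 (by decide)
      simp only [Fin.reduceFinMk, Fin.isValue] at h' hxi hri
      omega
  obtain ⟨l, hli, hl⟩ := hex
  have hm : IsTab r c (moveVal l i (0 : Fin 2) 1 x.1) :=
    move_isTab hli (by decide) x.2 hl (by omega)
  refine ⟨⟨_, hm⟩, ?_⟩
  show moveVal l i (0 : Fin 2) 1 x.1 i 0 = x.1 i 0 + 1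
  simp [moveVal, hli.symm]

/-- The third index. -/
theorem third (i l : Fin 3) (hil : i ≠ l) : ∃ t, t ≠ i ∧ t ≠ l ∧
    ∀ p : Fin 3 → ℕ, p 0 + p 1 + p 2 = p i + p l + p t := by
  fin_cases i <;> fin_cases l <;>
    first
    | exact absurd rfl hil
    | exact ⟨0, by decide, by decide, fun p => by simp <;> omega⟩
    | exact ⟨1, by decide, by decide, fun p => by simp <;> omega⟩
    | exact ⟨2, by decide, by decide, fun p => by simp <;> omega⟩

theorem three_cases {i l t : Fin 3} (hti : t ≠ i) (htl : t ≠ l) (hil : i ≠ l) :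
    ∀ s, s = i ∨ s = l ∨ s = t := by
  revert hti htl hil
  revert i l t
  decide

theorem sum_first (x : Tab r c) (i l t : Fin 3)
    (ht : ∀ p : Fin 3 → ℕ, p 0 + p 1 + p 2 = p i + p l + p t) :
    x.1 i 0 + x.1 l 0 + x.1 t 0 = c 0 := by
  rw [← col0 x]
  exact (ht (fun s => x.1 s 0)).symm

theorem first_inj {i l t : Fin 3} (hti : t ≠ i) (htl : t ≠ l) (hil : i ≠ l)
    (ht : ∀ p : Fin 3 → ℕ, p 0 + p 1 + p 2 = p i + p l + p t) {x y : Tab r c}
    (h1 : x.1 i 0 = y.1 i 0) (h2 : x.1 l 0 = y.1 l 0) : x = y := by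
  apply tab_ext_of_first
  have h3 := sum_first x i l t ht
  have h4 := sum_first y i l t ht
  have hall := three_cases hti htl hil
  intro s
  rcases hall s with rfl | rfl | rfl
  · exact h1
  · exact h2
  · omega

/-- Stochastic monotonicity of the levels. -/
theorem aS_hM (i l : Fin 3) (hil : i ≠ l) (y : ℕ) (hy : ∃ x : Tab r c, aS i x = y)
    (hy1 : ∃ x : Tab r c, aS i x = y + 1) (u : ℕ → ℝ) (hu : Monotone u) :
    lev (aS (r := r) (c := c) i) (u ∘ aS l) (y + 1) ≤ lev (aS (r := r) (c := c) i) (u ∘ aS l) y := by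
  obtain ⟨t, hti, htl, ht⟩ := third i l hil
  let S : ℕ → Finset (Tab r c) := fun z => univ.filter (fun x => z = aS i x)
  let I : ℕ → Finset ℕ := fun z => (S z).image (aS l)
  have hinj : ∀ z, Set.InjOn (aS l) (S z : Set (Tab r c)) := by
    intro z x hx x' hx' h
    have h1 : z = aS i x := by simpa [S] using hx
    have h2 : z = aS i x' := by simpa [S] using hx'
    exact first_inj hti htl hil ht (h1.symm.trans h2) h
  have hlev : ∀ z, lev (aS (r := r) (c := c) i) (u ∘ aS l) z = (∑ v ∈ I z, u v) / ((I z).card : ℝ) := by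
    intro z
    unfold lev
    simp only [I]
    rw [Finset.sum_image (hinj z), Finset.card_image_of_injOn (hinj z)]
    rfl
  have hpos : ∀ z, (∃ x : Tab r c, aS i x = z) → (0 : ℝ) < ((I z).card : ℝ) := by
    rintro z ⟨x, hx⟩
    have : x ∈ S z := by simp [S, hx]
    have h2 : 0 < (I z).card := Finset.card_pos.mpr ⟨aS l x, Finset.mem_image_of_mem _ this⟩
    exact_mod_cast h2
  have hmem : ∀ z v, v ∈ I z ↔ ∃ x : Tab r c, aS i x = z ∧ aS l x = v := by
    intro z v
    simp only [I, S, mem_image, mem_filter, mem_univ, true_and]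
    constructor
    · rintro ⟨x, h1, h2⟩
      exact ⟨x, h1.symm, h2⟩
    · rintro ⟨x, h1, h2⟩
      exact ⟨x, h1.symm, h2⟩
  have hcross : ∀ v w, v < w → v ∈ I y → w ∈ I (y + 1) → v ∈ I (y + 1) ∧ w ∈ I y := by
    intro v w hvw hv hw
    obtain ⟨x', h1', h2'⟩ := (hmem y v).1 hv
    obtain ⟨x, h1, h2⟩ := (hmem (y + 1) w).1 hw
    have s1 := sum_first x i l t ht
    have s2 := sum_first x' i l t ht
    have b1 := row_eq x i
    have b2 := row_eq x' l
    have b3 := row_eq x' t
    have b4 := row_eq x l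
    have b5 := row_eq x' i
    have e1 : x.1 i 0 = y + 1 := h1
    have e2 : x.1 l 0 = w := h2
    have e3 : x'.1 i 0 = y := h1'
    have e4 : x'.1 l 0 = v := h2'
    constructor
    · let p : Fin 3 → ℕ := fun s => if s = i then y + 1 else if s = l then v else x'.1 t 0 - 1
      have pi : p i = y + 1 := by simp [p]
      have pl : p l = v := by simp [p, hil.symm]
      have pt : p t = x'.1 t 0 - 1 := by simp [p, hti, htl]
      have hall := three_cases hti htl hil
      have hp : ∀ s, p s ≤ r s := by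
        intro s
        rcases hall s with rfl | rfl | rfl
        · rw [pi]; omega
        · rw [pl]; omega
        · rw [pt]; omega
      have hs : p 0 + p 1 + p 2 = c 0 := by
        rw [ht p, pi, pl, pt]
        omega
      rw [hmem]
      refine ⟨⟨_, mk_isTab x p hp hs⟩, ?_, ?_⟩
      · show mkVal r p i 0 = y + 1
        simp [mkVal, pi]
      · show mkVal r p l 0 = v
        simp [mkVal, pl]
    · let p : Fin 3 → ℕ := fun s => if s = i then y else if s = l then w else x.1 t 0 + 1
      have pi : p i = y := by simp [p]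
      have pl : p l = w := by simp [p, hil.symm]
      have pt : p t = x.1 t 0 + 1 := by simp [p, hti, htl]
      have hall := three_cases hti htl hil
      have hp : ∀ s, p s ≤ r s := by
        intro s
        rcases hall s with rfl | rfl | rfl
        · rw [pi]; omega
        · rw [pl]; omega
        · rw [pt]; omega
      have hs : p 0 + p 1 + p 2 = c 0 := by
        rw [ht p, pi, pl, pt]
        omega
      rw [hmem]
      refine ⟨⟨_, mk_isTab x p hp hs⟩, ?_, ?_⟩
      · show mkVal r p i 0 = y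
        simp [mkVal, pi]
      · show mkVal r p l 0 = w
        simp [mkVal, pl]
  set V := I y ∪ I (y + 1) with hV
  let A : ℕ → ℝ := fun v => if v ∈ I (y + 1) then 1 else 0
  let B : ℕ → ℝ := fun v => if v ∈ I y then 1 else 0
  have hmlr := mlr_sum V A B u hu (by
    intro v _ w _ hvw
    simp only [A, B]
    by_cases h1 : w ∈ I (y + 1)
    · by_cases h2 : v ∈ I y
      · obtain ⟨h3, h4⟩ := hcross v w hvw h2 h1
        simp [h1, h2, h3, h4]
      · simp only [h2, if_false, mul_zero]
        split_ifs <;> norm_num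
    · simp only [h1, if_false, zero_mul]
      split_ifs <;> norm_num)
  have hsub1 : I (y + 1) ⊆ V := Finset.subset_union_right
  have hsub2 : I y ⊆ V := Finset.subset_union_left
  have e1 : ∀ T : Finset ℕ, T ⊆ V → ∑ v ∈ V, (if v ∈ T then (1 : ℝ) else 0) * u v = ∑ v ∈ T, u v := by
    intro T hT
    simp only [ite_mul, one_mul, zero_mul]
    rw [Finset.sum_ite_mem, Finset.inter_eq_right.mpr hT]
  have e2 : ∀ T : Finset ℕ, T ⊆ V → ∑ v ∈ V, (if v ∈ T then (1 : ℝ) else 0) = (T.card : ℝ) := by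
    intro T hT
    rw [Finset.sum_ite_mem, Finset.inter_eq_right.mpr hT]
    simp
  simp only [A, B] at hmlr
  rw [e1 _ hsub1, e1 _ hsub2, e2 _ hsub1, e2 _ hsub2] at hmlr
  rw [hlev, hlev, div_le_div_iff₀ (hpos _ hy1) (hpos _ hy)]
  exact hmlr

end two

section final
variable {κ : Type*} [Fintype κ] [DecidableEq κ] {r₃ : Fin 3 → ℕ} {c₃ : κ → ℕ}

/-- The operator form on mean zero functions suffices. -/
theorem operator_of_mean_zero (H : ∀ h : Tab r₃ c₃ → ℝ, avg relTop h = 0 →
    ∑ e, avg (rRow e) h ⬝ᵥ avg (rRow e) h ≤ 2 * (h ⬝ᵥ h)) (h : Tab r₃ c₃ → ℝ) :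
    ∑ e, avg (rRow e) h ⬝ᵥ avg (rRow e) h ≤ 2 * (h ⬝ᵥ h) + avg relTop h ⬝ᵥ avg relTop h := by
  set m := avg relTop h with hm
  set h0 := h - m with hh0
  have hm0 : avg relTop h0 = 0 := by
    rw [hh0, avg_sub, hm, avg_avg relTop_equiv, sub_self]
  have hmm : ∀ e, avg (rRow e) m = m := fun e =>
    avg_of_coarser (rRow_equiv e) relTop_equiv (fun _ _ _ => trivial) h
  have hH := H h0 hm0
  have hg0 : ∀ e, avg relTop (avg (rRow e) h0) = 0 := by
    intro e
    rw [avg_tower (rRow_equiv e) relTop_equiv (fun _ _ _ => trivial), hm0]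
  have hexp : ∀ e, avg (rRow e) h = avg (rRow e) h0 + m := by
    intro e
    have : h = h0 + m := by rw [hh0]; abel
    conv_lhs => rw [this]
    rw [avg_add, hmm]
  have hcross : ∀ e, avg (rRow e) h0 ⬝ᵥ m = 0 := by
    intro e
    have h2 : avg relTop (avg (rRow e) h0) ⬝ᵥ h = avg (rRow e) h0 ⬝ᵥ avg relTop h :=
      avg_dot relTop_equiv _ _
    rw [hm, ← h2, hg0]
    simp
  have hh0m : h0 ⬝ᵥ m = 0 := by
    have h1 : h0 ⬝ᵥ avg relTop h = avg relTop h0 ⬝ᵥ h := (avg_dot relTop_equiv _ _).symm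
    rw [hm, h1, hm0]
    simp
  have e1 : ∑ e, avg (rRow e) h ⬝ᵥ avg (rRow e) h
      = ∑ e, avg (rRow e) h0 ⬝ᵥ avg (rRow e) h0 + 3 * (m ⬝ᵥ m) := by
    have : ∀ e, avg (rRow e) h ⬝ᵥ avg (rRow e) h
        = avg (rRow e) h0 ⬝ᵥ avg (rRow e) h0 + m ⬝ᵥ m := by
      intro e
      rw [hexp, add_dotProduct, dotProduct_add, dotProduct_add, hcross, dotProduct_comm m, hcross]
      ring
    simp only [this, Finset.sum_add_distrib]
    simp
  have e2 : h ⬝ᵥ h = h0 ⬝ᵥ h0 + m ⬝ᵥ m := by
    have : h = h0 + m := by rw [hh0]; abel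
    conv_lhs => rw [this]
    rw [add_dotProduct, dotProduct_add, dotProduct_add, hh0m, dotProduct_comm m, hh0m]
    ring
  rw [e1, e2]
  linarith

end final

/-- The three row condition holds for tables with two columns. -/
theorem T3_two_col (r : Fin 3 → ℕ) (c : Fin 2 → ℕ) : T3 r c := by
  apply T3_of_operator
  apply operator_of_mean_zero
  intro h hh
  have hb := radial_bound (Ω := Tab r c) aS aS_hI aS_hM h hh
  have e : ∀ e, avg (rRow e) h = avg (sameVal (aS e)) h := fun e =>
    avg_congr_rel' (rRow_iff e) h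
  simp only [e]
  exact hb

end Vale.Agent.Lib.P328
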