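import Vale.Agent.Lib.P328.Form
import Vale.Agent.Lib.P328.LemmaA

set_option linter.unusedSectionVars false

/-!
Explicit enumeration of tables with three rows, and the three row condition from a finite check.
-/

namespace Vale.Agent.Lib.P328

open Finset Matrix Vale.Agent.Lib.P335

/-- All vectors below `cs` with total `ρ`. -/
def vecsL : List ℕ → ℕ → List (List ℕ)
  | [], ρ => if ρ = 0 then [[]] else []
  | c :: cs, ρ => (List.range (min ρ c + 1)).flatMap fun v => (vecsL cs (ρ - v)).map (v :: ·)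

def subL : List ℕ → List ℕ → List ℕ
  | a :: as, b :: bs => (a - b) :: subL as bs
  | _, _ => []

def codeL : List ℕ → ℕ
  | [] => 0
  | a :: as => a + 7 * codeL as

def codeS (s : ℕ) (v : List ℕ) : ℕ := s + 3 * codeL v

def tabsL (cs : List ℕ) (r0 r1 : ℕ) : List Trip :=
  (vecsL cs r0).flatMap fun a =>
    (vecsL (subL cs a) r1).map fun b => (codeS 0 a, codeS 1 b, codeS 2 (subL (subL cs a) b))

def statesL (cs : List ℕ) (r0 r1 r2 : ℕ) : List ℕ :=
  (vecsL cs r0).map (codeS 0) ++ (vecsL cs r1).map (codeS 1) ++ (vecsL cs r2).map (codeS 2)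

/-- The finite check for one instance. -/
def checkInst (cs : List ℕ) (r0 r1 r2 : ℕ) : Bool :=
  let T := tabsL cs r0 r1
  let P := statesL cs r0 r1 r2
  decide T.Nodup && decide P.Nodup &&
    T.all (fun τ => decide (τ.1 ∈ P) && decide (τ.2.1 ∈ P) && decide (τ.2.2 ∈ P)
      && (τ.1 % 3 == 0) && (τ.2.1 % 3 == 1) && (τ.2.2 % 3 == 2)) &&
    psdCheck P.length (mMat T P)

theorem mem_vecs (k : ℕ) (c : Fin k → ℕ) (ρ : ℕ) (l : List ℕ) :
    l ∈ vecsL (List.ofFn c) ρ ↔
      ∃ v : Fin k → ℕ, l = List.ofFn v ∧ (∀ j, v j ≤ c j) ∧ ∑ j, v j = ρ := by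
  induction k generalizing ρ l with
  | zero =>
    simp only [List.ofFn_zero, vecsL]
    constructor
    · intro h
      by_cases hρ : ρ = 0
      · subst hρ
        simp only [if_true, List.mem_singleton] at h
        subst h
        exact ⟨Fin.elim0, by simp, fun j => j.elim0, by simp⟩
      · simp [hρ] at h
    · rintro ⟨v, rfl, -, h⟩
      have hρ : ρ = 0 := by simpa using h.symm
      simp [hρ]
  | succ k ih =>
    simp only [List.ofFn_succ, vecsL, List.mem_flatMap, List.mem_range, List.mem_map]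
    constructor
    · rintro ⟨x, hx, l', hl', rfl⟩
      obtain ⟨v', rfl, hv1, hv2⟩ := (ih (fun i => c i.succ) (ρ - x) l').1 hl'
      refine ⟨Fin.cons x v', ?_, ?_, ?_⟩
      · simp
      · intro j
        refine Fin.cases ?_ (fun i => ?_) j
        · simp
          omega
        · simpa using hv1 i
      · rw [Fin.sum_univ_succ]
        simp only [Fin.cons_zero, Fin.cons_succ]
        omega
    · rintro ⟨v, rfl, hv1, hv2⟩
      rw [Fin.sum_univ_succ] at hv2
      refine ⟨v 0, ?_, List.ofFn (fun i => v i.succ), ?_, ?_⟩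
      · have := hv1 0
        omega
      · rw [ih]
        refine ⟨fun i => v i.succ, rfl, fun i => hv1 i.succ, ?_⟩
        show ∑ i : Fin k, v i.succ = ρ - v 0
        omega
      · simp

theorem subL_ofFn (k : ℕ) (c v : Fin k → ℕ) :
    subL (List.ofFn c) (List.ofFn v) = List.ofFn (fun j => c j - v j) := by
  induction k with
  | zero => simp [subL]
  | succ k ih =>
    simp only [List.ofFn_succ, subL]
    rw [ih]

theorem code_inj (k : ℕ) (v w : Fin k → ℕ) (hv : ∀ j, v j < 7) (hw : ∀ j, w j < 7)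
    (h : codeL (List.ofFn v) = codeL (List.ofFn w)) : v = w := by
  induction k with
  | zero => exact funext fun j => j.elim0
  | succ k ih =>
    simp only [List.ofFn_succ, codeL] at h
    have h0 : v 0 = w 0 := by
      have := hv 0
      have := hw 0
      omega
    have h1 : codeL (List.ofFn fun i => v i.succ) = codeL (List.ofFn fun i => w i.succ) := by
      omega
    have h2 := ih (fun i => v i.succ) (fun i => w i.succ) (fun i => hv _) (fun i => hw _) h1
    funext j
    refine Fin.cases h0 (fun i => ?_) j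
    exact congrFun h2 i

section three

variable {k : ℕ} {r : Fin 3 → ℕ} {c : Fin k → ℕ}

/-- Label of a row of a table. -/
def codeT (s : Fin 3) (x : Tab r c) : ℕ := codeS s (List.ofFn (x.1 s))

/-- The triple of labels of a table. -/
def tripT (x : Tab r c) : Trip := (codeT 0 x, codeT 1 x, codeT 2 x)

theorem codeS_mod (s : Fin 3) (v : List ℕ) : codeS s v % 3 = s := by
  unfold codeS
  have := s.2
  omega

theorem entry_lt (hb : ∀ j, c j ≤ 6) (x : Tab r c) (s : Fin 3) (j : Fin k) : x.1 s j < 7 := by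
  have := entry_le x.2 s j
  have := hb j
  omega

theorem codeT_inj (hb : ∀ j, c j ≤ 6) {s s' : Fin 3} {x x' : Tab r c}
    (h : codeT s x = codeT s' x') : s = s' ∧ x.1 s = x'.1 s' := by
  have h1 : (s : ℕ) = s' := by
    have a1 := codeS_mod s (List.ofFn (x.1 s))
    have a2 := codeS_mod s' (List.ofFn (x'.1 s'))
    unfold codeT at h
    rw [← a1, ← a2, h]
  have hs : s = s' := Fin.ext h1
  subst hs
  refine ⟨rfl, ?_⟩
  apply code_inj k _ _ (entry_lt hb x s) (entry_lt hb x' s)
  unfold codeT codeS at h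
  omega

theorem tripT_inj (hb : ∀ j, c j ≤ 6) : Function.Injective (tripT (r := r) (c := c)) := by
  intro x y h
  simp only [tripT, Prod.mk.injEq] at h
  apply Subtype.ext
  funext s
  have hs : s = 0 ∨ s = 1 ∨ s = 2 := by
    fin_cases s <;> simp
  rcases hs with rfl | rfl | rfl
  · exact (codeT_inj hb h.1).2
  · exact (codeT_inj hb h.2.1).2
  · exact (codeT_inj hb h.2.2).2

theorem col_three (x : Tab r c) (j : Fin k) : x.1 0 j + x.1 1 j + x.1 2 j = c j := by
  have := x.2.2 j
  rwa [Fin.sum_univ_three] at this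

theorem mem_tabs (hsum : ∑ j, c j = r 0 + r 1 + r 2) (τ : Trip) :
    τ ∈ tabsL (List.ofFn c) (r 0) (r 1) ↔ ∃ x : Tab r c, tripT x = τ := by
  simp only [tabsL, List.mem_flatMap, List.mem_map]
  constructor
  · rintro ⟨a, ha, b, hb, rfl⟩
    obtain ⟨v, rfl, hv1, hv2⟩ := (mem_vecs k c _ a).1 ha
    rw [subL_ofFn] at hb ⊢
    obtain ⟨w, rfl, hw1, hw2⟩ := (mem_vecs k _ _ b).1 hb
    rw [subL_ofFn]
    have hx : IsTab r c ![v, w, fun j => c j - v j - w j] := by
      have hs : ∑ j, (c j - v j - w j) + ∑ j, v j + ∑ j, w j = ∑ j, c j := by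
        rw [← Finset.sum_add_distrib, ← Finset.sum_add_distrib]
        apply Finset.sum_congr rfl
        intro j _
        have := hv1 j
        have := hw1 j
        omega
      constructor
      · intro s
        fin_cases s
        · simpa using hv2
        · simpa using hw2
        · simp only [Fin.reduceFinMk, Matrix.cons_val]
          omega
      · intro j
        rw [Fin.sum_univ_three]
        simp only [Matrix.cons_val_zero, Matrix.cons_val_one, Matrix.cons_val]
        have := hv1 j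
        have := hw1 j
        omega
    refine ⟨⟨_, hx⟩, ?_⟩
    simp only [tripT, codeT]
    rfl
  · rintro ⟨x, rfl⟩
    have hc0 := col_three x
    refine ⟨List.ofFn (x.1 0), (mem_vecs k c _ _).2 ⟨x.1 0, rfl, fun j => entry_le x.2 0 j, x.2.1 0⟩,
      List.ofFn (x.1 1), ?_, ?_⟩
    · rw [subL_ofFn, mem_vecs]
      refine ⟨x.1 1, rfl, fun j => ?_, x.2.1 1⟩
      have := hc0 j
      omega
    · rw [subL_ofFn, subL_ofFn]
      have h2 : (fun j => c j - x.1 0 j - x.1 1 j) = x.1 2 := by
        funext j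
        have := hc0 j
        omega
      rw [h2]
      rfl

theorem sum_tabs (hsum : ∑ j, c j = r 0 + r 1 + r 2) (hb : ∀ j, c j ≤ 6)
    (hn : (tabsL (List.ofFn c) (r 0) (r 1)).Nodup) (φ : Trip → ℝ) :
    ∑ x : Tab r c, φ (tripT x) = ((tabsL (List.ofFn c) (r 0) (r 1)).map φ).sum := by
  rw [← List.sum_toFinset _ hn]
  have himg : (tabsL (List.ofFn c) (r 0) (r 1)).toFinset = univ.image (tripT (r := r) (c := c)) := by
    ext τ
    simp only [List.mem_toFinset, mem_image, mem_univ, true_and]
    exact mem_tabs hsum τ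
  rw [himg, Finset.sum_image (fun a _ b _ h => tripT_inj hb h)]

theorem length_tabs (hsum : ∑ j, c j = r 0 + r 1 + r 2) (hb : ∀ j, c j ≤ 6)
    (hn : (tabsL (List.ofFn c) (r 0) (r 1)).Nodup) :
    (tabsL (List.ofFn c) (r 0) (r 1)).length = Fintype.card (Tab r c) := by
  have h := sum_tabs (r := r) (c := c) hsum hb hn (fun _ => 1)
  simp only [Finset.sum_const, Finset.card_univ, nsmul_eq_mul, mul_one, List.map_const',
    List.sum_replicate] at h
  exact_mod_cast h.symm

/-- The values on labels. -/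
noncomputable def zOf (g : Fin 3 → Tab r c → ℝ) (p : ℕ) : ℝ := by
  classical
  exact if h : ∃ (s : Fin 3) (x : Tab r c), codeT s x = p then
    g h.choose h.choose_spec.choose else 0

theorem zOf_code (hb : ∀ j, c j ≤ 6) (g : Fin 3 → Tab r c → ℝ) (hg : ∀ e, Meas (rRow e) (g e))
    (s : Fin 3) (x : Tab r c) : zOf g (codeT s x) = g s x := by
  classical
  have h : ∃ (s' : Fin 3) (x' : Tab r c), codeT s' x' = codeT s x := ⟨s, x, rfl⟩
  unfold zOf
  rw [dif_pos h]
  have h1 := h.choose_spec.choose_spec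
  obtain ⟨a, b⟩ := codeT_inj hb h1
  have hc : h.choose = s := a
  revert b h1
  generalize h.choose_spec.choose = x'
  rw [hc]
  intro _ b
  exact hg s x' x b

/-- The three row condition from the finite check. -/
theorem T3_of_check (hsum : ∑ j, c j = r 0 + r 1 + r 2) (hb : ∀ j, c j ≤ 6)
    (hc : checkInst (List.ofFn c) (r 0) (r 1) (r 2) = true) : T3 r c := by
  simp only [checkInst, Bool.and_eq_true, decide_eq_true_eq, List.all_eq_true, beq_iff_eq] at hc
  obtain ⟨⟨⟨hT, hP⟩, hall⟩, hpsd⟩ := hc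
  set T := tabsL (List.ofFn c) (r 0) (r 1) with hTdef
  intro g hg
  set z := zOf g with hz
  have hform := form_nonneg T _ hP
    (fun τ hτ => by
      have := hall τ hτ
      exact ⟨this.1.1.1.1.1, this.1.1.1.1.2, this.1.1.1.2⟩)
    (fun τ hτ => by
      have := hall τ hτ
      exact ⟨this.1.1.2, this.1.2, this.2⟩)
    hpsd z
  have hcard := length_tabs hsum hb hT
  have hz0 : ∀ x, z (tripT x).1 = g 0 x := fun x => zOf_code hb g hg 0 x
  have hz1 : ∀ x, z (tripT x).2.1 = g 1 x := fun x => zOf_code hb g hg 1 x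
  have hz2 : ∀ x, z (tripT x).2.2 = g 2 x := fun x => zOf_code hb g hg 2 x
  have hs := fun φ => sum_tabs (r := r) (c := c) hsum hb hT φ
  rw [← hTdef] at hs hcard
  unfold formT at hform
  simp only at hform
  rw [← hs, ← hs, ← hs, ← hs, ← hs, hcard] at hform
  simp only [hz0, hz1, hz2] at hform
  -- the target
  set N : ℝ := (Fintype.card (Tab r c) : ℝ) with hN
  by_cases hN0 : Fintype.card (Tab r c) = 0
  · have : IsEmpty (Tab r c) := Fintype.card_eq_zero_iff.mp hN0
    simp [dotProduct]
  · have hNpos : 0 < N := by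
      rw [hN]
      exact_mod_cast Nat.pos_of_ne_zero hN0
    have hmean : ∀ f : Tab r c → ℝ, avg relTop f ⬝ᵥ avg relTop f = (∑ x, f x) ^ 2 / N := by
      intro f
      unfold dotProduct
      simp only [avg_top_apply, Finset.sum_const, Finset.card_univ, nsmul_eq_mul]
      rw [← hN]
      field_simp
    simp only [hmean, Fin.sum_univ_three]
    have e1 : ∀ u v w : Tab r c → ℝ, (u + v + w) ⬝ᵥ (u + v + w) = ∑ x, (u x + v x + w x) ^ 2 := by
      intro u v w
      unfold dotProduct
      apply Finset.sum_congr rfl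
      intro x _
      simp only [Pi.add_apply]
      ring
    have e2 : ∀ u : Tab r c → ℝ, u ⬝ᵥ u = ∑ x, u x ^ 2 := by
      intro u
      unfold dotProduct
      apply Finset.sum_congr rfl
      intro x _
      ring
    have e3 : ∀ u v w : Tab r c → ℝ, ∑ x, (u + v + w) x = ∑ x, u x + ∑ x, v x + ∑ x, w x := by
      intro u v w
      simp only [Pi.add_apply, Finset.sum_add_distrib]
    rw [e1, e2, e2, e2, e3]
    have e4 : ∑ x, (g 0 x ^ 2 + g 1 x ^ 2 + g 2 x ^ 2)
        = ∑ x, g 0 x ^ 2 + ∑ x, g 1 x ^ 2 + ∑ x, g 2 x ^ 2 := by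
      simp only [Finset.sum_add_distrib]
    rw [e4] at hform
    set A0 := ∑ x, g 0 x
    set A1 := ∑ x, g 1 x
    set A2 := ∑ x, g 2 x
    set S0 := ∑ x, g 0 x ^ 2
    set S1 := ∑ x, g 1 x ^ 2
    set S2 := ∑ x, g 2 x ^ 2
    set C := ∑ x, (g 0 x + g 1 x + g 2 x) ^ 2
    have hgoal : C - (A0 + A1 + A2) ^ 2 / N - 2 * (S0 - A0 ^ 2 / N + (S1 - A1 ^ 2 / N) + (S2 - A2 ^ 2 / N)) ≤ 0 := by
      have e5 : C - (A0 + A1 + A2) ^ 2 / N - 2 * (S0 - A0 ^ 2 / N + (S1 - A1 ^ 2 / N) + (S2 - A2 ^ 2 / N))
          = -(N * (2 * (S0 + S1 + S2) - C) - (2 * (A0 ^ 2 + A1 ^ 2 + A2 ^ 2) - (A0 + A1 + A2) ^ 2)) / N := by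
        field_simp
        ring
      rw [e5]
      apply div_nonpos_of_nonpos_of_nonneg _ hNpos.le
      linarith
    linarith

end three

end Vale.Agent.Lib.P328
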