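import Vale.Agent.Lib.P328.Psd

set_option linter.unusedSectionVars false

/-!
The quadratic form of the three row condition, in terms of a list of triples of labels.
-/

namespace Vale.Agent.Lib.P328

open Finset

/-- Triples of labels of rows. -/
abbrev Trip := ℕ × ℕ × ℕ

/-- How many of the entries of a triple equal `p`. -/
def hit (τ : Trip) (p : ℕ) : ℕ :=
  (if τ.1 = p then 1 else 0) + (if τ.2.1 = p then 1 else 0) + (if τ.2.2 = p then 1 else 0)

def cnt1 : List Trip → ℕ → ℕ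
  | [], _ => 0
  | τ :: ts, p => hit τ p + cnt1 ts p

def cnt2 : List Trip → ℕ → ℕ → ℕ
  | [], _, _ => 0
  | τ :: ts, p, q => hit τ p * hit τ q + cnt2 ts p q

/-- Matrix entry, with the triples containing `p` kept apart to save time. -/
def mEntry (n : ℤ) (T Tp : List Trip) (p q : ℕ) : ℤ :=
  n * ((if p = q then 2 * (cnt1 Tp p : ℤ) else 0) - (cnt2 Tp p q : ℤ))
    - (if p % 3 = q % 3 then 1 else -1) * ((cnt1 Tp p : ℤ) * (cnt1 T q : ℤ))

/-- The matrix of the form. -/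
def mMat (T : List Trip) (P : List ℕ) : List (List ℤ) :=
  P.map fun p => P.map fun q => mEntry (T.length : ℤ) T (T.filter fun τ => hit τ p != 0) p q

theorem cnt1_filter (T : List Trip) (p : ℕ) : cnt1 (T.filter fun τ => hit τ p != 0) p = cnt1 T p := by
  induction T with
  | nil => rfl
  | cons τ ts ih =>
    by_cases h : hit τ p = 0
    · simp [h, cnt1, ih]
    · simp [h, cnt1, ih]

theorem cnt2_filter (T : List Trip) (p q : ℕ) :
    cnt2 (T.filter fun τ => hit τ p != 0) p q = cnt2 T p q := by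
  induction T with
  | nil => rfl
  | cons τ ts ih =>
    by_cases h : hit τ p = 0
    · simp [h, cnt2, ih]
    · simp [h, cnt2, ih]

theorem dotL_map (Q : List ℕ) (f : ℕ → ℤ) (z : ℕ → ℝ) :
    dotL (Q.map f) (Q.map z) = (Q.map fun q => (f q : ℝ) * z q).sum := by
  induction Q with
  | nil => simp
  | cons q qs ih => simp [ih]

theorem qfA_map (Q : List ℕ) (R : ℕ → List ℤ) (z : ℕ → ℝ) (W : List ℝ) :
    qfA (Q.map R) (Q.map z) W = (Q.map fun p => z p * dotL (R p) W).sum := by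
  induction Q with
  | nil => simp
  | cons q qs ih => simp [ih]

section sums

variable {PF : Finset ℕ}

theorem sum_hit (τ : Trip) (h1 : τ.1 ∈ PF) (h2 : τ.2.1 ∈ PF) (h3 : τ.2.2 ∈ PF) (g : ℕ → ℝ) :
    ∑ p ∈ PF, (hit τ p : ℝ) * g p = g τ.1 + g τ.2.1 + g τ.2.2 := by
  have e : ∀ p, (hit τ p : ℝ) * g p = (if τ.1 = p then g p else 0) + (if τ.2.1 = p then g p else 0)
      + (if τ.2.2 = p then g p else 0) := by
    intro p
    unfold hit
    push_cast
    by_cases a1 : τ.1 = p <;> by_cases a2 : τ.2.1 = p <;> by_cases a3 : τ.2.2 = p <;>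
      simp [a1, a2, a3] <;> ring
  simp only [e, Finset.sum_add_distrib, Finset.sum_ite_eq, h1, h2, h3, if_true]

theorem sum_cnt1 (T : List Trip) (hm : ∀ τ ∈ T, τ.1 ∈ PF ∧ τ.2.1 ∈ PF ∧ τ.2.2 ∈ PF) (g : ℕ → ℝ) :
    ∑ p ∈ PF, (cnt1 T p : ℝ) * g p = (T.map fun τ => g τ.1 + g τ.2.1 + g τ.2.2).sum := by
  induction T with
  | nil => simp [cnt1]
  | cons τ ts ih =>
    have hτ := hm τ (by simp)
    have h2 := ih (fun t ht => hm t (by simp [ht]))
    simp only [cnt1, Nat.cast_add, add_mul, Finset.sum_add_distrib, List.map_cons, List.sum_cons]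
    rw [sum_hit τ hτ.1 hτ.2.1 hτ.2.2, h2]

theorem sum_cnt2 (T : List Trip) (hm : ∀ τ ∈ T, τ.1 ∈ PF ∧ τ.2.1 ∈ PF ∧ τ.2.2 ∈ PF) (z : ℕ → ℝ) :
    ∑ p ∈ PF, ∑ q ∈ PF, (cnt2 T p q : ℝ) * (z p * z q)
      = (T.map fun τ => (z τ.1 + z τ.2.1 + z τ.2.2) ^ 2).sum := by
  induction T with
  | nil => simp [cnt2]
  | cons τ ts ih =>
    have hτ := hm τ (by simp)
    have h2 := ih (fun t ht => hm t (by simp [ht]))
    simp only [cnt2, Nat.cast_add, Nat.cast_mul, add_mul, Finset.sum_add_distrib, List.map_cons,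
      List.sum_cons]
    rw [h2]
    congr 1
    have e : ∀ p q, (hit τ p : ℝ) * (hit τ q : ℝ) * (z p * z q)
        = ((hit τ p : ℝ) * z p) * ((hit τ q : ℝ) * z q) := fun p q => by ring
    simp only [e]
    have h3 : ∀ p ∈ PF, ∑ q ∈ PF, ((hit τ p : ℝ) * z p) * ((hit τ q : ℝ) * z q)
        = ((hit τ p : ℝ) * z p) * (z τ.1 + z τ.2.1 + z τ.2.2) := by
      intro p _
      rw [← Finset.mul_sum, sum_hit τ hτ.1 hτ.2.1 hτ.2.2]
    rw [Finset.sum_congr rfl h3, ← Finset.sum_mul, sum_hit τ hτ.1 hτ.2.1 hτ.2.2]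
    ring

end sums

/-- The form on lists. -/
noncomputable def formT (T : List Trip) (z : ℕ → ℝ) : ℝ :=
  let A0 := (T.map fun τ => z τ.1).sum
  let A1 := (T.map fun τ => z τ.2.1).sum
  let A2 := (T.map fun τ => z τ.2.2).sum
  let S := (T.map fun τ => z τ.1 ^ 2 + z τ.2.1 ^ 2 + z τ.2.2 ^ 2).sum
  let C := (T.map fun τ => (z τ.1 + z τ.2.1 + z τ.2.2) ^ 2).sum
  (T.length : ℝ) * (2 * S - C) - (2 * (A0 ^ 2 + A1 ^ 2 + A2 ^ 2) - (A0 + A1 + A2) ^ 2)

theorem sum_split3 (T : List Trip) (z : ℕ → ℝ) :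
    (T.map fun τ => z τ.1 + z τ.2.1 + z τ.2.2).sum
      = (T.map fun τ => z τ.1).sum + (T.map fun τ => z τ.2.1).sum + (T.map fun τ => z τ.2.2).sum := by
  induction T with
  | nil => simp
  | cons τ ts ih =>
    simp only [List.map_cons, List.sum_cons, ih]
    ring

theorem sgn_expand (p q : ℕ) :
    (if p % 3 = q % 3 then (1 : ℝ) else -1)
      = 2 * ((if p % 3 = 0 then 1 else 0) * (if q % 3 = 0 then 1 else 0)
        + (if p % 3 = 1 then 1 else 0) * (if q % 3 = 1 then 1 else 0)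
        + (if p % 3 = 2 then 1 else 0) * (if q % 3 = 2 then 1 else 0)) - 1 := by
  have hp : p % 3 = 0 ∨ p % 3 = 1 ∨ p % 3 = 2 := by omega
  have hq : q % 3 = 0 ∨ q % 3 = 1 ∨ q % 3 = 2 := by omega
  rcases hp with hp | hp | hp <;> rcases hq with hq | hq | hq <;> simp [hp, hq] <;> norm_num

theorem qf_eq_form (T : List Trip) (P : List ℕ) (hP : P.Nodup)
    (hm : ∀ τ ∈ T, τ.1 ∈ P ∧ τ.2.1 ∈ P ∧ τ.2.2 ∈ P)
    (hmod : ∀ τ ∈ T, τ.1 % 3 = 0 ∧ τ.2.1 % 3 = 1 ∧ τ.2.2 % 3 = 2) (z : ℕ → ℝ) :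
    qfA (mMat T P) (P.map z) (P.map z) = formT T z := by
  set PF := P.toFinset with hPF
  have hm' : ∀ τ ∈ T, τ.1 ∈ PF ∧ τ.2.1 ∈ PF ∧ τ.2.2 ∈ PF := by
    intro τ hτ
    have := hm τ hτ
    simpa [hPF] using this
  unfold mMat
  rw [qfA_map]
  simp only [dotL_map]
  rw [← List.sum_toFinset _ hP]
  have hin : ∀ p, (P.map fun q => ((mEntry (T.length : ℤ) T (T.filter fun τ => hit τ p != 0) p q : ℤ) : ℝ) * z q).sum
      = ∑ q ∈ PF, ((mEntry (T.length : ℤ) T (T.filter fun τ => hit τ p != 0) p q : ℤ) : ℝ) * z q := by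
    intro p
    rw [hPF, List.sum_toFinset _ hP]
  simp only [hin]
  set n : ℝ := (T.length : ℝ) with hn
  let a : ℕ → ℝ := fun p => (cnt1 T p : ℝ)
  let s0 : ℕ → ℝ := fun p => if p % 3 = 0 then 1 else 0
  let s1 : ℕ → ℝ := fun p => if p % 3 = 1 then 1 else 0
  let s2 : ℕ → ℝ := fun p => if p % 3 = 2 then 1 else 0
  have hentry : ∀ p q, ((mEntry (T.length : ℤ) T (T.filter fun τ => hit τ p != 0) p q : ℤ) : ℝ)
      = n * ((if p = q then 2 * a p else 0) - (cnt2 T p q : ℝ))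
        - (2 * (s0 p * s0 q + s1 p * s1 q + s2 p * s2 q) - 1) * (a p * a q) := by
    intro p q
    unfold mEntry
    rw [cnt1_filter, cnt2_filter]
    push_cast
    rw [sgn_expand]
  simp only [hentry]
  -- evaluate the pieces
  have hU : ∀ g : ℕ → ℝ, ∑ p ∈ PF, a p * g p = (T.map fun τ => g τ.1 + g τ.2.1 + g τ.2.2).sum :=
    fun g => sum_cnt1 T hm' g
  have hA0 : ∑ p ∈ PF, a p * (s0 p * z p) = (T.map fun τ => z τ.1).sum := by
    rw [hU]
    congr 1
    apply List.map_congr_left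
    intro τ hτ
    have := hmod τ hτ
    simp [s0, this.1, this.2.1, this.2.2]
  have hA1 : ∑ p ∈ PF, a p * (s1 p * z p) = (T.map fun τ => z τ.2.1).sum := by
    rw [hU]
    congr 1
    apply List.map_congr_left
    intro τ hτ
    have := hmod τ hτ
    simp [s1, this.1, this.2.1, this.2.2]
  have hA2 : ∑ p ∈ PF, a p * (s2 p * z p) = (T.map fun τ => z τ.2.2).sum := by
    rw [hU]
    congr 1
    apply List.map_congr_left
    intro τ hτ
    have := hmod τ hτ
    simp [s2, this.1, this.2.1, this.2.2]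
  have hS : ∑ p ∈ PF, a p * (z p ^ 2) = (T.map fun τ => z τ.1 ^ 2 + z τ.2.1 ^ 2 + z τ.2.2 ^ 2).sum :=
    hU _
  have hall : ∑ p ∈ PF, a p * z p = (T.map fun τ => z τ.1 + z τ.2.1 + z τ.2.2).sum := hU _
  have hC := sum_cnt2 (PF := PF) T hm' z
  -- expansion
  have hexp : ∀ p ∈ PF, z p * ∑ q ∈ PF, (n * ((if p = q then 2 * a p else 0) - (cnt2 T p q : ℝ))
        - (2 * (s0 p * s0 q + s1 p * s1 q + s2 p * s2 q) - 1) * (a p * a q)) * z q
      = n * (2 * (a p * (z p ^ 2))) - n * ∑ q ∈ PF, (cnt2 T p q : ℝ) * (z p * z q)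
        - 2 * ((a p * (s0 p * z p)) * ∑ q ∈ PF, a q * (s0 q * z q)
          + (a p * (s1 p * z p)) * ∑ q ∈ PF, a q * (s1 q * z q)
          + (a p * (s2 p * z p)) * ∑ q ∈ PF, a q * (s2 q * z q))
        + (a p * z p) * ∑ q ∈ PF, a q * z q := by
    intro p hp
    have e1 : ∀ q, (n * ((if p = q then 2 * a p else 0) - (cnt2 T p q : ℝ))
        - (2 * (s0 p * s0 q + s1 p * s1 q + s2 p * s2 q) - 1) * (a p * a q)) * z q
        = n * ((if p = q then 2 * a p * z q else 0)) - n * ((cnt2 T p q : ℝ) * z q)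
          - 2 * (a p * s0 p) * (a q * (s0 q * z q)) - 2 * (a p * s1 p) * (a q * (s1 q * z q))
          - 2 * (a p * s2 p) * (a q * (s2 q * z q)) + a p * (a q * z q) := by
      intro q
      by_cases hpq : p = q
      · simp only [hpq, if_true]
        ring
      · simp only [hpq, if_false]
        ring
    simp only [e1, Finset.sum_add_distrib, Finset.sum_sub_distrib, ← Finset.mul_sum,
      Finset.sum_ite_eq, hp, if_true]
    have e2 : ∀ q, (cnt2 T p q : ℝ) * (z p * z q) = z p * ((cnt2 T p q : ℝ) * z q) := fun q => by ring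
    simp only [e2, ← Finset.mul_sum]
    ring
  rw [Finset.sum_congr rfl hexp]
  simp only [Finset.sum_add_distrib, Finset.sum_sub_distrib, ← Finset.mul_sum, ← Finset.sum_mul,
    hS, hA0, hA1, hA2, hC]
  rw [hall, sum_split3]
  simp only [formT]
  ring

/-- The check gives nonnegativity of the form. -/
theorem form_nonneg (T : List Trip) (P : List ℕ) (hP : P.Nodup)
    (hm : ∀ τ ∈ T, τ.1 ∈ P ∧ τ.2.1 ∈ P ∧ τ.2.2 ∈ P)
    (hmod : ∀ τ ∈ T, τ.1 % 3 = 0 ∧ τ.2.1 % 3 = 1 ∧ τ.2.2 % 3 = 2)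
    (hc : psdCheck P.length (mMat T P) = true) (z : ℕ → ℝ) : 0 ≤ formT T z := by
  rw [← qf_eq_form T P hP hm hmod z]
  apply psdCheck_sound _ _ _ _ hc
  simp [mMat]

end Vale.Agent.Lib.P328
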