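import Vale.Agent.Lib.P328.Conn

set_option linter.unusedSectionVars false

/-!
Fibers of the relation that rows outside a set agree are again spaces of tables.
The three row condition and the bound on the variance that it implies.
-/

namespace Vale.Agent.Lib.P328

open Finset Matrix Vale.Agent.Lib.P335

section generic

theorem sum_nonneg_of_classes {Ω : Type*} [Fintype Ω] {ρ : Ω → Ω → Prop} [DecidableRel ρ]
    (hρ : Equivalence ρ) (F : Ω → ℝ) (h : ∀ x, 0 ≤ ∑ y ∈ univ.filter (ρ x), F y) :
    0 ≤ ∑ x, F x := by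
  rw [← sum_avg hρ F]
  apply Finset.sum_nonneg
  intro x _
  unfold avg
  exact div_nonneg (h x) (by positivity)

theorem filter_eq_map {W Ω : Type*} [Fintype W] [Fintype Ω] {ρ : Ω → Ω → Prop} [DecidableRel ρ]
    {ρ' : W → W → Prop} [DecidableRel ρ'] (G : W → Ω) (hG : Function.Injective G)
    (h1 : ∀ w w', ρ (G w) (G w') ↔ ρ' w w') (h2 : ∀ w y, ρ (G w) y → ∃ w', G w' = y) (w : W) :
    univ.filter (ρ (G w)) = (univ.filter (ρ' w)).map ⟨G, hG⟩ := by
  ext y
  simp only [mem_filter, mem_univ, true_and, mem_map, Function.Embedding.coeFn_mk]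
  constructor
  · intro hy
    obtain ⟨w', rfl⟩ := h2 w y hy
    exact ⟨w', (h1 w w').1 hy, rfl⟩
  · rintro ⟨w', hw', rfl⟩
    exact (h1 w w').2 hw'

theorem avg_glue {W Ω : Type*} [Fintype W] [Fintype Ω] {ρ : Ω → Ω → Prop} [DecidableRel ρ]
    {ρ' : W → W → Prop} [DecidableRel ρ'] (G : W → Ω) (hG : Function.Injective G)
    (h1 : ∀ w w', ρ (G w) (G w') ↔ ρ' w w') (h2 : ∀ w y, ρ (G w) y → ∃ w', G w' = y)
    (f : Ω → ℝ) (w : W) : avg ρ f (G w) = avg ρ' (f ∘ G) w := by
  unfold avg
  rw [filter_eq_map G hG h1 h2 w, Finset.sum_map, Finset.card_map]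
  rfl

/-- Cross terms are nonnegative given the bound for three relations. -/
theorem cross_of_K3 {Ω : Type*} [Fintype Ω] {ρ1 ρ2 ρ3 ρ : Ω → Ω → Prop} [DecidableRel ρ1]
    [DecidableRel ρ2] [DecidableRel ρ3] [DecidableRel ρ]
    (h1 : Equivalence ρ1) (h2 : Equivalence ρ2) (h3 : Equivalence ρ3) (h : Equivalence ρ)
    (s1 : ∀ x y, ρ1 x y → ρ x y) (s2 : ∀ x y, ρ2 x y → ρ x y) (s3 : ∀ x y, ρ3 x y → ρ x y)
    (K3 : ∀ f : Ω → ℝ, avg ρ1 f ⬝ᵥ avg ρ1 f + avg ρ2 f ⬝ᵥ avg ρ2 f + avg ρ3 f ⬝ᵥ avg ρ3 f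
      ≤ 2 * (f ⬝ᵥ f) + avg ρ f ⬝ᵥ avg ρ f) (f : Ω → ℝ) :
    0 ≤ (f - avg ρ1 f) ⬝ᵥ (f - avg ρ2 f) + (f - avg ρ1 f) ⬝ᵥ (f - avg ρ3 f)
      + (f - avg ρ2 f) ⬝ᵥ (f - avg ρ3 f) := by
  set g := f - avg ρ f with hg
  have hE : ∀ {σ : Ω → Ω → Prop} [DecidableRel σ], Equivalence σ → (∀ x y, σ x y → ρ x y) →
      f - avg σ f = g - avg σ g := by
    intro σ _ hσ hs
    rw [hg, avg_sub, avg_of_coarser hσ h hs]
    abel
  have hPi : avg ρ g = 0 := by
    rw [hg, avg_sub, avg_avg h, sub_self]
  rw [hE h1 s1, hE h2 s2, hE h3 s3]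
  have hK := K3 g
  rw [hPi] at hK
  simp only [dotProduct_zero, add_zero] at hK
  set A := g ⬝ᵥ g with hA
  set e1 := avg ρ1 g with he1
  set e2 := avg ρ2 g with he2
  set e3 := avg ρ3 g with he3
  have d1 : g ⬝ᵥ e1 = e1 ⬝ᵥ e1 := (avg_dot_avg h1 g).symm
  have d2 : g ⬝ᵥ e2 = e2 ⬝ᵥ e2 := (avg_dot_avg h2 g).symm
  have d3 : g ⬝ᵥ e3 = e3 ⬝ᵥ e3 := (avg_dot_avg h3 g).symm
  have hS := dot_self_nonneg ((g - e1) + (g - e2) + (g - e3) - g)
  have c1 : e1 ⬝ᵥ g = e1 ⬝ᵥ e1 := by rw [dotProduct_comm, d1]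
  have c2 : e2 ⬝ᵥ g = e2 ⬝ᵥ e2 := by rw [dotProduct_comm, d2]
  have c3 : e3 ⬝ᵥ g = e3 ⬝ᵥ e3 := by rw [dotProduct_comm, d3]
  have c4 : e2 ⬝ᵥ e1 = e1 ⬝ᵥ e2 := dotProduct_comm _ _
  have c5 : e3 ⬝ᵥ e1 = e1 ⬝ᵥ e3 := dotProduct_comm _ _
  have c6 : e3 ⬝ᵥ e2 = e2 ⬝ᵥ e3 := dotProduct_comm _ _
  simp only [sub_dotProduct, dotProduct_sub, add_dotProduct, dotProduct_add,
    d1, d2, d3, c1, c2, c3, c4, c5, c6] at hS ⊢
  linarith

end generic

variable {ι κ : Type*} [Fintype ι] [DecidableEq ι] [Fintype κ] [DecidableEq κ]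
  {r : ι → ℕ} {c : κ → ℕ}

section glue
variable {m : ℕ} (idx : Fin m → ι)

/-- Column totals on the chosen rows. -/
def margin (x : ι → κ → ℕ) (j : κ) : ℕ := ∑ a, x (idx a) j

variable {idx}

omit [Fintype ι] [Fintype κ] [DecidableEq κ] in
theorem colIn_image (hidx : Function.Injective idx) (x : ι → κ → ℕ) (j : κ) :
    colIn (univ.image idx) x j = margin idx x j := by
  unfold colIn margin
  rw [Finset.sum_image (fun a _ b _ h => hidx h)]

theorem margin_eq_of_agree (hidx : Function.Injective idx) {x y : Tab r c}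
    (h : agree (univ.image idx) x y) (j : κ) : margin idx x.1 j = margin idx y.1 j := by
  have := colIn_eq_of_agree h j
  rwa [colIn_image hidx, colIn_image hidx] at this

variable (idx)

/-- Put rows on the chosen positions, keep the others. -/
noncomputable def gluedVal (x₀ : Tab r c) (w : Fin m → κ → ℕ) : ι → κ → ℕ :=
  Function.extend idx w x₀.1

variable {idx}

theorem gluedVal_idx (hidx : Function.Injective idx) (x₀ : Tab r c) (w : Fin m → κ → ℕ)
    (a : Fin m) : gluedVal idx x₀ w (idx a) = w a := hidx.extend_apply _ _ _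

theorem gluedVal_off (x₀ : Tab r c) (w : Fin m → κ → ℕ) {i : ι} (hi : i ∉ univ.image idx) :
    gluedVal idx x₀ w i = x₀.1 i := by
  apply Function.extend_apply'
  rintro ⟨a, rfl⟩
  exact hi (by simp)

theorem glue_isTab (hidx : Function.Injective idx) (x₀ : Tab r c)
    (w : Tab (fun a => r (idx a)) (margin idx x₀.1)) : IsTab r c (gluedVal idx x₀ w.1) := by
  constructor
  · intro i
    by_cases hi : i ∈ univ.image idx
    · obtain ⟨a, -, rfl⟩ := Finset.mem_image.mp hi
      rw [gluedVal_idx hidx]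
      exact w.2.1 a
    · rw [gluedVal_off x₀ w.1 hi]
      exact x₀.2.1 i
  · intro j
    rw [col_split (univ.image idx), colIn_image hidx, ← x₀.2.2 j, col_split (univ.image idx) x₀.1,
      colIn_image hidx]
    have h1 : margin idx (gluedVal idx x₀ w.1) j = margin idx x₀.1 j := by
      have e : ∀ a, gluedVal idx x₀ w.1 (idx a) j = w.1 a j := fun a => by
        rw [gluedVal_idx hidx]
      show ∑ a, gluedVal idx x₀ w.1 (idx a) j = _
      rw [Finset.sum_congr rfl (fun a _ => e a)]
      exact w.2.2 j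
    rw [h1]
    congr 1
    apply Finset.sum_congr rfl
    intro i hi
    rw [gluedVal_off x₀ w.1 (by simpa using hi)]

/-- The fiber map. -/
noncomputable def glue (hidx : Function.Injective idx) (x₀ : Tab r c)
    (w : Tab (fun a => r (idx a)) (margin idx x₀.1)) : Tab r c :=
  ⟨gluedVal idx x₀ w.1, glue_isTab hidx x₀ w⟩

theorem glue_idx (hidx : Function.Injective idx) (x₀ : Tab r c)
    (w : Tab (fun a => r (idx a)) (margin idx x₀.1)) (a : Fin m) :
    (glue hidx x₀ w).1 (idx a) = w.1 a := gluedVal_idx hidx x₀ w.1 a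

theorem glue_off (hidx : Function.Injective idx) (x₀ : Tab r c)
    (w : Tab (fun a => r (idx a)) (margin idx x₀.1)) {i : ι} (hi : i ∉ univ.image idx) :
    (glue hidx x₀ w).1 i = x₀.1 i := gluedVal_off x₀ w.1 hi

theorem glue_inj (hidx : Function.Injective idx) (x₀ : Tab r c) :
    Function.Injective (glue hidx x₀) := by
  intro w w' h
  apply Subtype.ext
  funext a
  rw [← glue_idx hidx x₀ w a, ← glue_idx hidx x₀ w' a, h]

theorem agree_glue (hidx : Function.Injective idx) (x₀ : Tab r c)
    (w : Tab (fun a => r (idx a)) (margin idx x₀.1)) : agree (univ.image idx) x₀ (glue hidx x₀ w) :=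
  fun _ hi => (glue_off hidx x₀ w hi).symm

theorem glue_surj (hidx : Function.Injective idx) (x₀ : Tab r c) {y : Tab r c}
    (h : agree (univ.image idx) x₀ y) : ∃ w, glue hidx x₀ w = y := by
  have hw : IsTab (fun a => r (idx a)) (margin idx x₀.1) (fun a => y.1 (idx a)) := by
    constructor
    · intro a
      exact y.2.1 (idx a)
    · intro j
      rw [margin_eq_of_agree hidx h j]
      rfl
  refine ⟨⟨_, hw⟩, ?_⟩
  apply Subtype.ext
  funext i
  by_cases hi : i ∈ univ.image idx
  · obtain ⟨a, -, rfl⟩ := Finset.mem_image.mp hi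
    exact glue_idx hidx x₀ _ a
  · rw [glue_off hidx x₀ _ hi]
    exact h i hi

/-- Sum over a class as a sum over the fiber space. -/
theorem sum_class_glue (hidx : Function.Injective idx) (x₀ : Tab r c) (F : Tab r c → ℝ) :
    ∑ y ∈ univ.filter (agree (univ.image idx) x₀), F y = ∑ w, F (glue hidx x₀ w) := by
  have : univ.filter (agree (univ.image idx) x₀)
      = univ.map ⟨glue hidx x₀, glue_inj hidx x₀⟩ := by
    ext y
    simp only [mem_filter, mem_univ, true_and, mem_map, Function.Embedding.coeFn_mk]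
    constructor
    · intro hy
      exact glue_surj hidx x₀ hy
    · rintro ⟨w, rfl⟩
      exact agree_glue hidx x₀ w
  rw [this, Finset.sum_map]
  rfl

/-- The fiber map turns the relation of all rows into the whole-space relation. -/
theorem avg_glue_top (hidx : Function.Injective idx) (x₀ : Tab r c) (f : Tab r c → ℝ)
    (w : Tab (fun a => r (idx a)) (margin idx x₀.1)) :
    avg (agree (univ.image idx)) f (glue hidx x₀ w) = avg relTop (f ∘ glue hidx x₀) w := by
  apply avg_glue (glue hidx x₀) (glue_inj hidx x₀)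
  · intro w w'
    simp only [relTop, iff_true]
    exact (agree_equiv _).trans ((agree_equiv _).symm (agree_glue hidx x₀ w)) (agree_glue hidx x₀ w')
  · intro w y hy
    exact glue_surj hidx x₀ ((agree_equiv _).trans (agree_glue hidx x₀ w) hy)

end glue

section three

variable {r₃ : Fin 3 → ℕ} {c₃ : κ → ℕ}

/-- Same row `e`, in a table with three rows. -/
def rRow (e : Fin 3) (x y : Tab r₃ c₃) : Prop := x.1 e = y.1 e

instance (e : Fin 3) : DecidableRel (rRow (r₃ := r₃) (c₃ := c₃) e) := fun x y => by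
  unfold rRow
  infer_instance

theorem rRow_equiv (e : Fin 3) : Equivalence (rRow (r₃ := r₃) (c₃ := c₃) e) :=
  ⟨fun _ => rfl, fun h => h.symm, fun h k => h.trans k⟩

/-- The three row condition, in the form of a bound on the variance of a sum of functions of
single rows: `Var(g₀(R₀) + g₁(R₁) + g₂(R₂)) ≤ 2 ∑ₛ Var(gₛ(Rₛ))` for uniform tables with three
rows.  Variances are written up to the common factor `|Ω|`. -/
def T3 (r₃ : Fin 3 → ℕ) (c₃ : κ → ℕ) : Prop :=
  ∀ g : Fin 3 → Tab r₃ c₃ → ℝ, (∀ e, Meas (rRow e) (g e)) →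
    (∑ e, g e) ⬝ᵥ (∑ e, g e) - avg relTop (∑ e, g e) ⬝ᵥ avg relTop (∑ e, g e)
      ≤ 2 * ∑ e, (g e ⬝ᵥ g e - avg relTop (g e) ⬝ᵥ avg relTop (g e))

/-- The operator form of the three row condition. -/
theorem T3.operator (h3 : T3 r₃ c₃) (h : Tab r₃ c₃ → ℝ) :
    ∑ e, avg (rRow e) h ⬝ᵥ avg (rRow e) h ≤ 2 * (h ⬝ᵥ h) + avg relTop h ⬝ᵥ avg relTop h := by
  set m := avg relTop h with hm
  set h0 := h - m with hh0
  have hm0 : avg relTop h0 = 0 := by
    rw [hh0, avg_sub, hm, avg_avg relTop_equiv, sub_self]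
  have hmm : ∀ e, avg (rRow e) m = m := fun e =>
    avg_of_coarser (rRow_equiv e) relTop_equiv (fun _ _ _ => trivial) h
  let g : Fin 3 → Tab r₃ c₃ → ℝ := fun e => avg (rRow e) h0
  have hgm : ∀ e, Meas (rRow e) (g e) := fun e => avg_meas (rRow_equiv e) h0
  have hg0 : ∀ e, avg relTop (g e) = 0 := by
    intro e
    simp only [g]
    rw [avg_tower (rRow_equiv e) relTop_equiv (fun _ _ _ => trivial), hm0]
  have hF0 : avg relTop (∑ e, g e) = 0 := by
    rw [avg_sum]
    simp [hg0]
  have hT := h3 g hgm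
  rw [hF0] at hT
  simp only [hg0, dotProduct_zero, sub_zero] at hT
  set S := ∑ e, g e ⬝ᵥ g e with hS
  have hdot : h0 ⬝ᵥ (∑ e, g e) = S := by
    rw [dotProduct_sum]
    apply Finset.sum_congr rfl
    intro e _
    exact (avg_dot_avg (rRow_equiv e) h0).symm
  have hq := dot_le_quarter (∑ e, g e) h0
  rw [dotProduct_comm, hdot] at hq
  have hSle : S ≤ 2 * (h0 ⬝ᵥ h0) := by linarith
  have hexp : ∀ e, avg (rRow e) h = g e + m := by
    intro e
    have : h = h0 + m := by rw [hh0]; abel
    simp only [g]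
    conv_lhs => rw [this]
    rw [avg_add, hmm]
  have hcross : ∀ e, g e ⬝ᵥ m = 0 := by
    intro e
    have h1 : g e ⬝ᵥ m = g e ⬝ᵥ avg relTop h := rfl
    have h2 : avg relTop (g e) ⬝ᵥ h = g e ⬝ᵥ avg relTop h := avg_dot relTop_equiv _ _
    rw [h1, ← h2, hg0]
    simp
  have hh0m : h0 ⬝ᵥ m = 0 := by
    have h1 : h0 ⬝ᵥ avg relTop h = avg relTop h0 ⬝ᵥ h := (avg_dot relTop_equiv _ _).symm
    rw [hm, h1, hm0]
    simp
  have e1 : ∑ e, avg (rRow e) h ⬝ᵥ avg (rRow e) h = S + 3 * (m ⬝ᵥ m) := by
    have : ∀ e, avg (rRow e) h ⬝ᵥ avg (rRow e) h = g e ⬝ᵥ g e + m ⬝ᵥ m := by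
      intro e
      rw [hexp, add_dotProduct, dotProduct_add, dotProduct_add, hcross, dotProduct_comm m, hcross]
      ring
    simp only [this, Finset.sum_add_distrib, hS]
    simp
  have e2 : h ⬝ᵥ h = h0 ⬝ᵥ h0 + m ⬝ᵥ m := by
    have : h = h0 + m := by rw [hh0]; abel
    conv_lhs => rw [this]
    rw [add_dotProduct, dotProduct_add, dotProduct_add, hh0m, dotProduct_comm m, hh0m]
    ring
  rw [e1, e2]
  linarith

end three

/-- The three row condition for all sub-tables of tables with margins `r`, `c`. -/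
def AllT3 (r : ι → ℕ) (c : κ → ℕ) : Prop :=
  ∀ (idx : Fin 3 → ι), Function.Injective idx → ∀ x₀ : Tab r c,
    T3 (fun a => r (idx a)) (margin idx x₀.1)

/-- The bound for three rows, in the whole space. -/
theorem K3_omega (hT : AllT3 r c) {idx : Fin 3 → ι} (hidx : Function.Injective idx)
    (f : Tab r c → ℝ) :
    ∑ e, avg (agree ((univ.image idx).erase (idx e))) f ⬝ᵥ
        avg (agree ((univ.image idx).erase (idx e))) f
      ≤ 2 * (f ⬝ᵥ f) + avg (agree (univ.image idx)) f ⬝ᵥ avg (agree (univ.image idx)) f := by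
  set P := univ.image idx with hP
  let F : Tab r c → ℝ := fun x => 2 * (f x * f x)
    + avg (agree P) f x * avg (agree P) f x
    - ∑ e, avg (agree (P.erase (idx e))) f x * avg (agree (P.erase (idx e))) f x
  have hF : 0 ≤ ∑ x, F x := by
    apply sum_nonneg_of_classes (agree_equiv P)
    intro x₀
    rw [sum_class_glue hidx x₀ F]
    set G := glue hidx x₀ with hG
    set h := f ∘ G with hh
    have e1 : ∀ w, avg (agree P) f (G w) = avg relTop h w := avg_glue_top hidx x₀ f
    have e2 : ∀ e w, avg (agree (P.erase (idx e))) f (G w) = avg (rRow e) h w := by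
      intro e w
      apply avg_glue G (glue_inj hidx x₀)
      · intro w w'
        constructor
        · intro hw
          have := hw (idx e) (by simp)
          show w.1 e = w'.1 e
          rw [← glue_idx hidx x₀ w e, ← glue_idx hidx x₀ w' e]
          exact this
        · intro hw i hi
          by_cases hie : i = idx e
          · subst hie
            rw [glue_idx hidx x₀ w e, glue_idx hidx x₀ w' e]
            exact hw
          · have hiP : i ∉ P := fun hmem => hi (Finset.mem_erase.mpr ⟨hie, hmem⟩)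
            rw [glue_off hidx x₀ w hiP, glue_off hidx x₀ w' hiP]
      · intro w y hy
        have h1 : agree P (G w) y := agree_mono (Finset.erase_subset _ _) hy
        exact glue_surj hidx x₀ ((agree_equiv _).trans (agree_glue hidx x₀ w) h1)
    have hb := (hT idx hidx x₀).operator h
    have e3 : ∑ w, F (G w) = 2 * (h ⬝ᵥ h) + avg relTop h ⬝ᵥ avg relTop h
        - ∑ e, avg (rRow e) h ⬝ᵥ avg (rRow e) h := by
      simp only [F, e1, e2]
      unfold dotProduct
      rw [Finset.sum_sub_distrib, Finset.sum_add_distrib, ← Finset.mul_sum, Finset.sum_comm]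
      rfl
    rw [e3]
    linarith
  have e4 : ∑ x, F x = 2 * (f ⬝ᵥ f) + avg (agree P) f ⬝ᵥ avg (agree P) f
      - ∑ e, avg (agree (P.erase (idx e))) f ⬝ᵥ avg (agree (P.erase (idx e))) f := by
    simp only [F]
    unfold dotProduct
    rw [Finset.sum_sub_distrib, Finset.sum_add_distrib, ← Finset.mul_sum, Finset.sum_comm]
  rw [e4] at hF
  linarith

/-- Three rows `k`, `l`, `x`: the cross terms. -/
theorem qA_cross (hT : AllT3 r c) {k l x : ι} (h1 : k ≠ l) (h2 : k ≠ x) (h3 : l ≠ x)
    (f : Tab r c → ℝ) :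
    0 ≤ qA {k, l} f ⬝ᵥ qA {k, x} f + qA {k, l} f ⬝ᵥ qA {l, x} f
      + qA {k, x} f ⬝ᵥ qA {l, x} f := by
  let idx : Fin 3 → ι := ![k, l, x]
  have hidx : Function.Injective idx := by
    intro a b hab
    fin_cases a <;> fin_cases b <;> simp_all [idx, eq_comm]
  have himg : univ.image idx = {k, l, x} := by
    ext i
    simp only [mem_image, mem_univ, true_and, mem_insert, mem_singleton]
    constructor
    · rintro ⟨a, rfl⟩
      fin_cases a <;> simp [idx]
    · rintro (rfl | rfl | rfl)
      · exact ⟨0, rfl⟩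
      · exact ⟨1, rfl⟩
      · exact ⟨2, rfl⟩
  have he0 : (univ.image idx).erase (idx 0) = {l, x} := by
    rw [himg]
    ext i
    simp only [idx, Matrix.cons_val_zero, mem_erase, mem_insert, mem_singleton]
    constructor
    · rintro ⟨h, (h' | h' | h')⟩
      · exact absurd h' h
      · exact Or.inl h'
      · exact Or.inr h'
    · rintro (rfl | rfl)
      · exact ⟨Ne.symm h1, Or.inr (Or.inl rfl)⟩
      · exact ⟨Ne.symm h2, Or.inr (Or.inr rfl)⟩
  have he1 : (univ.image idx).erase (idx 1) = {k, x} := by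
    rw [himg]
    ext i
    simp only [idx, Matrix.cons_val_one, Matrix.cons_val_zero, mem_erase, mem_insert, mem_singleton]
    constructor
    · rintro ⟨h, (h' | h' | h')⟩
      · exact Or.inl h'
      · exact absurd h' h
      · exact Or.inr h'
    · rintro (rfl | rfl)
      · exact ⟨h1, Or.inl rfl⟩
      · exact ⟨Ne.symm h3, Or.inr (Or.inr rfl)⟩
  have he2 : (univ.image idx).erase (idx 2) = {k, l} := by
    rw [himg]
    ext i
    have : idx 2 = x := rfl
    rw [this]
    simp only [mem_erase, mem_insert, mem_singleton]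
    constructor
    · rintro ⟨h, (h' | h' | h')⟩
      · exact Or.inl h'
      · exact Or.inr h'
      · exact absurd h' h
    · rintro (rfl | rfl)
      · exact ⟨h2, Or.inl rfl⟩
      · exact ⟨h3, Or.inr (Or.inl rfl)⟩
  have hK := fun f => K3_omega (r := r) (c := c) hT hidx f
  simp only [Fin.sum_univ_three] at hK
  have hsub : ∀ {a b : ι}, a ∈ ({k, l, x} : Finset ι) → b ∈ ({k, l, x} : Finset ι) →
      ∀ u v : Tab r c, agree {a, b} u v → agree (univ.image idx) u v := by
    intro a b ha hb u v huv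
    apply agree_mono _ huv
    rw [himg]
    intro i hi
    simp only [mem_insert, mem_singleton] at hi
    rcases hi with rfl | rfl
    · exact ha
    · exact hb
  have := cross_of_K3 (agree_equiv (r := r) (c := c) {k, l}) (agree_equiv {k, x}) (agree_equiv {l, x})
    (agree_equiv (univ.image idx))
    (hsub (by simp) (by simp)) (hsub (by simp) (by simp)) (hsub (by simp) (by simp))
    (fun f => by
      have := hK f
      rw [he0, he1, he2] at this
      linarith) f
  simpa only [qA_apply] using this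

/-- The main conditional bound: the three row condition gives gap at least one for the sum of
the complements of the averages on pairs of rows. -/
theorem tab_gap (hT : AllT3 r c) (f : Tab r c → ℝ) :
    f ⬝ᵥ f - avg relTop f ⬝ᵥ avg relTop f ≤ (1 / 2) * ∑ k, ∑ l, qA {k, l} f ⬝ᵥ qA {k, l} f := by
  have key := abstract_gap (Ω := Tab r c) (ι := ι)
    (fun k l => qA {k, l}) (avgL relTop)
    (fun k l f g => qA_symm _ f g)
    (fun k l f => qA_idem _ f)
    (fun k l => by rw [Finset.pair_comm])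
    (fun k => by
      apply LinearMap.ext
      intro f
      simp only [Finset.pair_eq_singleton]
      exact qA_single k f)
    (fun k l m n _ _ h1 h2 h3 h4 f => by
      apply qA_comm
      rw [Finset.disjoint_left]
      intro a ha hb
      simp only [mem_insert, mem_singleton] at ha hb
      rcases ha with rfl | rfl <;> rcases hb with rfl | rfl <;> simp_all)
    (fun k l x h1 h2 h3 f => qA_cross hT h1 h2 h3 f)
    (fun f g => avg_dot relTop_equiv f g)
    (fun f => avg_avg relTop_equiv f)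
    (fun k l f => by
      rw [qA_apply, avgL_apply, avg_of_meas (agree_equiv _), sub_self]
      intro x y _
      exact avg_meas relTop_equiv f x y trivial)
    (fun f hf => by
      apply avg_of_meas relTop_equiv
      intro x y _
      apply conn_pairs f
      intro k l u v huv
      have h1 := congrFun (hf k l) u
      have h2 := congrFun (hf k l) v
      simp only [qA_apply, Pi.sub_apply, Pi.zero_apply] at h1 h2
      have h3 := avg_meas (agree_equiv (r := r) (c := c) {k, l}) f u v huv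
      linarith)
    f
  simpa only [avgL_apply] using key

end Vale.Agent.Lib.P328
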