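import Mathlib

set_option linter.unusedSectionVars false

/-!
A checker for positive semidefiniteness of integer matrices given as lists of rows, by symmetric
elimination with exact integer arithmetic and removal of the common factor.
-/

namespace Vale.Agent.Lib.P328

/-- Pairing of an integer row with a vector of reals. -/
noncomputable def dotL : List ℤ → List ℝ → ℝ
  | a :: as, z :: zs => (a : ℝ) * z + dotL as zs
  | _, _ => 0

/-- The quadratic form, with the vector for the outer sum kept apart. -/
noncomputable def qfA : List (List ℤ) → List ℝ → List ℝ → ℝ
  | r :: rs, w :: ws, z => w * dotL r z + qfA rs ws z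
  | _, _, _ => 0

/-- One row of a step of elimination. -/
def elimRow (a : ℤ) (b : List ℤ) (row : List ℤ) : List ℤ :=
  match row with
  | [] => []
  | h :: t => List.zipWith (fun m e => a * m - h * e) t b

/-- Greatest common divisor of all entries. -/
def gcdRow (g : ℕ) : List ℤ → ℕ
  | [] => g
  | a :: as => gcdRow (Nat.gcd g a.natAbs) as

def gcdAll (g : ℕ) : List (List ℤ) → ℕ
  | [] => g
  | r :: rs => gcdAll (gcdRow g r) rs

def heads : List (List ℤ) → List ℤ
  | [] => []
  | (h :: _) :: rs => h :: heads rs
  | [] :: rs => 0 :: heads rs

def tails : List (List ℤ) → List (List ℤ)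
  | [] => []
  | (_ :: t) :: rs => t :: tails rs
  | [] :: rs => [] :: tails rs

/-- All rows have length `n + 1`. -/
def shapeOK (n : ℕ) : List (List ℤ) → Bool
  | [] => true
  | r :: rs => (r.length == n + 1) && shapeOK n rs

def allZero : List ℤ → Bool
  | [] => true
  | a :: as => (a == 0) && allZero as

def divRow (g : ℤ) : List ℤ → List ℤ
  | [] => []
  | a :: as => (a / g) :: divRow g as

def mulEq (g : ℤ) : List ℤ → List ℤ → Bool
  | [], [] => true
  | a :: as, b :: bs => (g * a == b) && mulEq g as bs
  | _, _ => false

def mulEqAll (g : ℤ) : List (List ℤ) → List (List ℤ) → Bool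
  | [], [] => true
  | a :: as, b :: bs => mulEq g a b && mulEqAll g as bs
  | _, _ => false

def elimAll (a : ℤ) (b : List ℤ) : List (List ℤ) → List (List ℤ)
  | [] => []
  | r :: rs => elimRow a b r :: elimAll a b rs

def divAll (g : ℤ) : List (List ℤ) → List (List ℤ)
  | [] => []
  | r :: rs => divRow g r :: divAll g rs

/-- The checker. -/
def psdCheck : ℕ → List (List ℤ) → Bool
  | 0, M => M.isEmpty
  | _ + 1, [] => true
  | fuel + 1, (a :: b) :: rest =>
    (heads rest == b) && (rest.length == b.length) && shapeOK b.length rest &&
      (if a = 0 then allZero b && psdCheck fuel (tails rest)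
       else if 0 < a then
        (let M' := elimAll a b rest
         let g := gcdAll 0 M'
         if g = 0 then psdCheck fuel M'
         else
          let M'' := divAll (g : ℤ) M'
          mulEqAll (g : ℤ) M'' M' && psdCheck fuel M'')
       else false)
  | _ + 1, [] :: _ => false

@[simp] theorem dotL_nil_left (z : List ℝ) : dotL [] z = 0 := by
  cases z <;> rfl

@[simp] theorem dotL_nil_right (a : List ℤ) : dotL a [] = 0 := by
  cases a <;> rfl

@[simp] theorem dotL_cons (a : ℤ) (as : List ℤ) (w : ℝ) (ws : List ℝ) :
    dotL (a :: as) (w :: ws) = (a : ℝ) * w + dotL as ws := rfl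

@[simp] theorem qfA_nil_left (w z : List ℝ) : qfA [] w z = 0 := by
  cases w <;> rfl

@[simp] theorem qfA_nil_mid (M : List (List ℤ)) (z : List ℝ) : qfA M [] z = 0 := by
  cases M <;> rfl

@[simp] theorem qfA_cons (r : List ℤ) (rs : List (List ℤ)) (w : ℝ) (ws z : List ℝ) :
    qfA (r :: rs) (w :: ws) z = w * dotL r z + qfA rs ws z := rfl

theorem qfA_split (rest : List (List ℤ)) (w : List ℝ) (z0 : ℝ) (z' : List ℝ) :
    qfA rest w (z0 :: z') = z0 * dotL (heads rest) w + qfA (tails rest) w z' := by
  induction rest generalizing w with
  | nil => simp [heads, tails]
  | cons r rs ih =>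
    cases w with
    | nil => simp
    | cons x xs =>
      cases r with
      | nil =>
        simp [heads, tails, ih]
      | cons h t =>
        simp only [heads, tails, qfA_cons, dotL_cons, ih]
        ring

theorem length_tails (M : List (List ℤ)) : (tails M).length = M.length := by
  induction M with
  | nil => rfl
  | cons r rs ih =>
    cases r <;> simp [tails, ih]

theorem length_elimAll (a : ℤ) (b : List ℤ) (M : List (List ℤ)) :
    (elimAll a b M).length = M.length := by
  induction M with
  | nil => rfl
  | cons r rs ih => simp [elimAll, ih]

theorem length_divAll (g : ℤ) (M : List (List ℤ)) : (divAll g M).length = M.length := by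
  induction M with
  | nil => rfl
  | cons r rs ih => simp [divAll, ih]

theorem dotL_zipWith (a h : ℤ) (t b : List ℤ) (z : List ℝ) (hl : t.length = b.length) :
    dotL (List.zipWith (fun m e => a * m - h * e) t b) z
      = (a : ℝ) * dotL t z - (h : ℝ) * dotL b z := by
  induction t generalizing b z with
  | nil =>
    cases b with
    | nil => simp
    | cons _ _ => simp at hl
  | cons x xs ih =>
    cases b with
    | nil => simp at hl
    | cons e es =>
      cases z with
      | nil => simp
      | cons w ws =>
        simp only [List.zipWith_cons_cons, dotL_cons]
        rw [ih es ws (by simpa using hl)]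
        push_cast
        ring

theorem qfA_elimAll (a : ℤ) (b : List ℤ) (rest : List (List ℤ)) (w z : List ℝ)
    (hs : shapeOK b.length rest = true) :
    qfA (elimAll a b rest) w z
      = (a : ℝ) * qfA (tails rest) w z - dotL (heads rest) w * dotL b z := by
  induction rest generalizing w with
  | nil => simp [elimAll, heads, tails]
  | cons r rs ih =>
    cases w with
    | nil => simp
    | cons x xs =>
      simp only [shapeOK, Bool.and_eq_true, beq_iff_eq] at hs
      cases r with
      | nil => simp at hs
      | cons h t =>
        have hl : t.length = b.length := by simpa using hs.1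
        simp only [elimAll, heads, tails, qfA_cons, dotL_cons, elimRow]
        rw [dotL_zipWith a h t b z hl, ih xs hs.2]
        ring

theorem mulEq_dot (g : ℤ) (a b : List ℤ) (z : List ℝ) (h : mulEq g a b = true) :
    dotL b z = (g : ℝ) * dotL a z := by
  induction a generalizing b z with
  | nil =>
    cases b with
    | nil => simp
    | cons _ _ => simp [mulEq] at h
  | cons x xs ih =>
    cases b with
    | nil => simp [mulEq] at h
    | cons y ys =>
      simp only [mulEq, Bool.and_eq_true, beq_iff_eq] at h
      cases z with
      | nil => simp
      | cons w ws =>
        simp only [dotL_cons]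
        rw [ih ys ws h.2, ← h.1]
        push_cast
        ring

theorem mulEqAll_qf (g : ℤ) (A B : List (List ℤ)) (w z : List ℝ) (h : mulEqAll g A B = true) :
    qfA B w z = (g : ℝ) * qfA A w z := by
  induction A generalizing B w with
  | nil =>
    cases B with
    | nil => simp
    | cons _ _ => simp [mulEqAll] at h
  | cons x xs ih =>
    cases B with
    | nil => simp [mulEqAll] at h
    | cons y ys =>
      simp only [mulEqAll, Bool.and_eq_true] at h
      cases w with
      | nil => simp
      | cons a as =>
        simp only [qfA_cons]
        rw [ih ys as h.2, mulEq_dot g x y z h.1]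
        ring

theorem dotL_allZero (b : List ℤ) (z : List ℝ) (h : allZero b = true) : dotL b z = 0 := by
  induction b generalizing z with
  | nil => simp
  | cons x xs ih =>
    simp only [allZero, Bool.and_eq_true, beq_iff_eq] at h
    cases z with
    | nil => simp
    | cons w ws =>
      simp [h.1, ih ws h.2]

/-- Soundness of the checker. -/
theorem psdCheck_sound (fuel : ℕ) (M : List (List ℤ)) (z : List ℝ) (hz : z.length = M.length)
    (h : psdCheck fuel M = true) : 0 ≤ qfA M z z := by
  induction fuel generalizing M z with
  | zero =>
    have : M = [] := by simpa [psdCheck] using h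
    subst this
    simp
  | succ fuel ih =>
    cases M with
    | nil => simp
    | cons row rest =>
      cases row with
      | nil => simp [psdCheck] at h
      | cons a b =>
        cases z with
        | nil => simp at hz
        | cons z0 z' =>
          have hz' : z'.length = rest.length := by simpa using hz
          simp only [psdCheck, Bool.and_eq_true, beq_iff_eq] at h
          obtain ⟨⟨⟨h1, h2⟩, h3⟩, h4⟩ := h
          have key : qfA ((a :: b) :: rest) (z0 :: z') (z0 :: z')
              = (a : ℝ) * z0 ^ 2 + 2 * z0 * dotL b z' + qfA (tails rest) z' z' := by
            simp only [qfA_cons, dotL_cons]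
            rw [qfA_split, h1]
            ring
          rw [key]
          by_cases ha : a = 0
          · rw [if_pos ha] at h4
            simp only [Bool.and_eq_true] at h4
            have hb := dotL_allZero b z' h4.1
            have := ih (tails rest) z' (by rw [length_tails, hz']) h4.2
            rw [hb, ha]
            simpa using this
          · rw [if_neg ha] at h4
            by_cases ha' : 0 < a
            · rw [if_pos ha'] at h4
              have hE := qfA_elimAll a b rest z' z' h3
              rw [h1] at hE
              have hQ : 0 ≤ qfA (elimAll a b rest) z' z' := by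
                by_cases hg : gcdAll 0 (elimAll a b rest) = 0
                · simp only [hg, if_true] at h4
                  exact ih _ z' (by rw [length_elimAll, hz']) h4
                · simp only [hg, if_false, Bool.and_eq_true] at h4
                  have h5 := ih _ z' (by rw [length_divAll, length_elimAll, hz']) h4.2
                  rw [mulEqAll_qf _ _ _ z' z' h4.1]
                  have hgpos : (0 : ℝ) ≤ ((gcdAll 0 (elimAll a b rest) : ℕ) : ℤ) := by positivity
                  exact mul_nonneg hgpos h5
              have haR : (0 : ℝ) < (a : ℝ) := by exact_mod_cast ha'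
              have hprod : (a : ℝ) * ((a : ℝ) * z0 ^ 2 + 2 * z0 * dotL b z' + qfA (tails rest) z' z')
                  = ((a : ℝ) * z0 + dotL b z') ^ 2 + qfA (elimAll a b rest) z' z' := by
                rw [hE]
                ring
              have h6 : 0 ≤ (a : ℝ) * ((a : ℝ) * z0 ^ 2 + 2 * z0 * dotL b z' + qfA (tails rest) z' z') := by
                rw [hprod]
                positivity
              exact nonneg_of_mul_nonneg_right h6 haR
            · rw [if_neg ha'] at h4
              simp at h4

end Vale.Agent.Lib.P328
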