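import Vale.Agent.Lib.P328.Enum

set_option linter.unusedSectionVars false

/-!
Reduction of the three row condition to sorted positive column sums on `Fin k`.
-/

namespace Vale.Agent.Lib.P328

open Finset Matrix Vale.Agent.Lib.P335

section transfer

variable {κ κ' : Type*} [Fintype κ] [DecidableEq κ] [Fintype κ'] [DecidableEq κ']
  {r : Fin 3 → ℕ} {c : κ → ℕ} {c' : κ' → ℕ}

theorem dot_comp_equiv {α β : Type*} [Fintype α] [Fintype β] (e : α ≃ β) (f : α → ℝ) :
    (f ∘ e.symm) ⬝ᵥ (f ∘ e.symm) = f ⬝ᵥ f := by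
  unfold dotProduct
  exact Equiv.sum_comp e.symm (fun x => f x * f x)

theorem top_comp_equiv {α β : Type*} [Fintype α] [Fintype β] (e : α ≃ β) (f : α → ℝ) :
    avg relTop (f ∘ e.symm) ⬝ᵥ avg relTop (f ∘ e.symm) = avg relTop f ⬝ᵥ avg relTop f := by
  classical
  have h1 : ∑ y, (f ∘ e.symm) y = ∑ x, f x := Equiv.sum_comp e.symm f
  have h2 : Fintype.card β = Fintype.card α := (Fintype.card_congr e).symm
  unfold dotProduct
  simp only [avg_top_apply, h1, h2, Finset.sum_const, Finset.card_univ, nsmul_eq_mul]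

/-- The three row condition transfers along a bijection of tables preserving each row relation. -/
theorem T3_transfer (Φ : Tab r c ≃ Tab r c') (hΦ : ∀ e x y, rRow e x y ↔ rRow e (Φ x) (Φ y))
    (h : T3 r c') : T3 r c := by
  intro g hg
  let g' : Fin 3 → Tab r c' → ℝ := fun e => g e ∘ Φ.symm
  have hg' : ∀ e, Meas (rRow e) (g' e) := by
    intro e y y' hyy'
    apply hg e
    rw [hΦ]
    simpa using hyy'
  have hsum : ∑ e, g' e = (∑ e, g e) ∘ Φ.symm := by
    funext y
    simp [g', Finset.sum_apply]
  have hb := h g' hg'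
  rw [hsum, dot_comp_equiv, top_comp_equiv] at hb
  simp only [g', dot_comp_equiv, top_comp_equiv] at hb
  exact hb

end transfer

section reindex

variable {κ : Type*} [Fintype κ] [DecidableEq κ] {k : ℕ} {r : Fin 3 → ℕ} {c : κ → ℕ}

/-- Columns with positive sum. -/
abbrev Sup (c : κ → ℕ) := {j // 0 < c j}

theorem sum_sup (c : κ → ℕ) (f : κ → ℕ) (hf : ∀ j, c j = 0 → f j = 0) :
    ∑ j : Sup c, f j.1 = ∑ j, f j := by
  rw [← Finset.sum_subtype (univ.filter fun j => 0 < c j) (by simp) f]
  apply Finset.sum_filter_of_ne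
  intro j _ hne
  by_contra h
  exact hne (hf j (by omega))

theorem zero_of_col_zero {x : Fin 3 → κ → ℕ} (hx : IsTab r c x) (s : Fin 3) {j : κ} (hj : c j = 0) :
    x s j = 0 := by
  have := entry_le hx s j
  omega

variable (φ : Fin k ≃ Sup c)

/-- Restriction of a table to the columns with positive sum. -/
def pull (x : Tab r c) : Tab r (fun i => c (φ i).1) :=
  ⟨fun s i => x.1 s (φ i).1, by
    constructor
    · intro s
      rw [← x.2.1 s, ← sum_sup c (x.1 s) (fun j hj => zero_of_col_zero x.2 s hj)]
      exact Equiv.sum_comp φ (fun j => x.1 s j.1)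
    · intro i
      exact x.2.2 (φ i).1⟩

/-- Extension of a table by zero columns. -/
def push (y : Tab r (fun i => c (φ i).1)) : Tab r c :=
  ⟨fun s j => if h : 0 < c j then y.1 s (φ.symm ⟨j, h⟩) else 0, by
    constructor
    · intro s
      rw [← y.2.1 s]
      rw [← sum_sup c _ (fun j hj => by simp [hj])]
      rw [← Equiv.sum_comp φ]
      apply Finset.sum_congr rfl
      intro i _
      have hi : 0 < c (φ i).1 := (φ i).2
      simp [hi]
    · intro j
      by_cases h : 0 < c j
      · simp only [h, dif_pos]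
        have := y.2.2 (φ.symm ⟨j, h⟩)
        rw [this]
        simp
      · simp only [h, dif_neg, not_false_eq_true, Finset.sum_const_zero]
        omega⟩

theorem pull_push (y : Tab r (fun i => c (φ i).1)) : pull φ (push φ y) = y := by
  apply Subtype.ext
  funext s i
  have hi : 0 < c (φ i).1 := (φ i).2
  simp [pull, push, hi]

theorem push_pull (x : Tab r c) : push φ (pull φ x) = x := by
  apply Subtype.ext
  funext s j
  by_cases h : 0 < c j
  · simp [pull, push, h]
  · simp only [push, h, dif_neg, not_false_eq_true]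
    exact (zero_of_col_zero x.2 s (by omega)).symm

/-- The bijection of tables. -/
def pullEquiv : Tab r c ≃ Tab r (fun i => c (φ i).1) where
  toFun := pull φ
  invFun := push φ
  left_inv := push_pull φ
  right_inv := pull_push φ

theorem pull_rRow (e : Fin 3) (x y : Tab r c) : rRow e x y ↔ rRow e (pull φ x) (pull φ y) := by
  constructor
  · intro h
    show (fun i => x.1 e (φ i).1) = fun i => y.1 e (φ i).1
    have h' : x.1 e = y.1 e := h
    rw [h']
  · intro h
    have h' : (fun i => x.1 e (φ i).1) = fun i => y.1 e (φ i).1 := h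
    show x.1 e = y.1 e
    funext j
    by_cases hj : 0 < c j
    · have := congrFun h' (φ.symm ⟨j, hj⟩)
      simpa using this
    · rw [zero_of_col_zero x.2 e (by omega), zero_of_col_zero y.2 e (by omega)]

theorem T3_of_pull (h : T3 r (fun i => c (φ i).1)) : T3 r c :=
  T3_transfer (pullEquiv φ) (pull_rRow φ) h

end reindex

/-- Compositions into positive nondecreasing parts. -/
def allC (N k : ℕ) : List (List ℕ) :=
  (vecsL (List.replicate k N) N).filter fun cs => cs.all (fun a => decide (0 < a))
    && decide (cs.Pairwise (· ≤ ·))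

/-- The check for given row sums. -/
def checkR (r0 r1 r2 : ℕ) : Bool :=
  (List.range 7).all fun k => (allC (r0 + r1 + r2) k).all fun cs => checkInst cs r0 r1 r2

theorem checkInst_of_checkR {r0 r1 r2 k : ℕ} (hk : k ≤ 6) (c : Fin k → ℕ) (hpos : ∀ i, 0 < c i)
    (hmono : Monotone c) (hsum : ∑ i, c i = r0 + r1 + r2) (h : checkR r0 r1 r2 = true) :
    checkInst (List.ofFn c) r0 r1 r2 = true := by
  unfold checkR at h
  rw [List.all_eq_true] at h
  have h1 := h k (by simp; omega)
  rw [List.all_eq_true] at h1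
  apply h1
  unfold allC
  rw [List.mem_filter]
  constructor
  · have e : List.replicate k (r0 + r1 + r2) = List.ofFn (fun _ : Fin k => r0 + r1 + r2) := by
      simp
    rw [e, mem_vecs]
    refine ⟨c, rfl, fun j => ?_, hsum⟩
    rw [← hsum]
    exact Finset.single_le_sum (f := c) (fun _ _ => Nat.zero_le _) (mem_univ j)
  · simp only [Bool.and_eq_true, List.all_eq_true, decide_eq_true_eq]
    constructor
    · intro a ha
      obtain ⟨i, rfl⟩ := (List.mem_ofFn' _ _).1 ha
      exact hpos i
    · rw [List.pairwise_ofFn]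
      intro i j hij
      exact hmono hij.le

section main

variable {κ : Type*} [Fintype κ] [DecidableEq κ] {r : Fin 3 → ℕ} {c : κ → ℕ}

theorem card_sup_le (c : κ → ℕ) : Fintype.card (Sup c) ≤ ∑ j, c j := by
  have h1 : ∑ _j : Sup c, 1 ≤ ∑ j : Sup c, c j.1 :=
    Finset.sum_le_sum (fun j _ => j.2)
  rw [sum_sup c c (fun j hj => hj)] at h1
  simpa using h1

/-- The three row condition from the finite check, for any column type. -/
theorem T3_of_checkR (hr : ∑ s, r s ≤ 6) (hsum : ∑ j, c j = r 0 + r 1 + r 2)
    (h : checkR (r 0) (r 1) (r 2) = true) : T3 r c := by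
  have hr' : r 0 + r 1 + r 2 ≤ 6 := by
    rwa [Fin.sum_univ_three] at hr
  set k := Fintype.card (Sup c) with hk
  let e : Sup c ≃ Fin k := Fintype.equivFin _
  let c₁ : Fin k → ℕ := fun i => c (e.symm i).1
  let σ := Tuple.sort c₁
  let φ : Fin k ≃ Sup c := σ.trans e.symm
  apply T3_of_pull φ
  have hmono : Monotone (fun i => c (φ i).1) := Tuple.monotone_sort c₁
  have hpos : ∀ i, 0 < (fun i => c (φ i).1) i := fun i => (φ i).2
  have hs : ∑ i, (fun i => c (φ i).1) i = r 0 + r 1 + r 2 := by
    rw [← hsum, ← sum_sup c c (fun j hj => hj)]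
    exact Equiv.sum_comp φ (fun j => c j.1)
  have hk6 : k ≤ 6 := by
    have := card_sup_le c
    omega
  have hb : ∀ i, (fun i => c (φ i).1) i ≤ 6 := by
    intro i
    have h1 : (fun i => c (φ i).1) i ≤ ∑ i, (fun i => c (φ i).1) i :=
      Finset.single_le_sum (f := fun i => c (φ i).1) (fun _ _ => Nat.zero_le _) (mem_univ i)
    omega
  exact T3_of_check hs hb (checkInst_of_checkR hk6 _ hpos hmono hs h)

end main

end Vale.Agent.Lib.P328
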