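import Vale.Agent.Lib.P328.Check222
import Vale.Agent.Lib.P328.CheckRest
import Vale.Agent.Lib.P328.Chain

set_option linter.unusedSectionVars false

/-!
The three row condition for row sums at most two, and the resulting mixing bound.
-/

namespace Vale.Agent.Lib.P328

open Finset Matrix Vale.Agent.Lib.P335

theorem checkR_small (a b d : ℕ) (ha : a ≤ 2) (hb : b ≤ 2) (hd : d ≤ 2) : checkR a b d = true := by
  by_cases h : (a, b, d) = (2, 2, 2)
  · simp only [Prod.mk.injEq] at h
    obtain ⟨rfl, rfl, rfl⟩ := h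
    exact check222
  · have h0 := checkRest
    unfold restTriples at h0
    rw [List.all_eq_true] at h0
    have := h0 (a, b, d) (by
      simp only [List.mem_filter, List.mem_flatMap, List.mem_range, List.mem_map]
      refine ⟨⟨a, by omega, b, by omega, d, by omega, rfl⟩, ?_⟩
      simpa using h)
    exact this

/-- The three row condition when all row sums are at most two. -/
theorem T3_small {κ : Type*} [Fintype κ] [DecidableEq κ] {r : Fin 3 → ℕ} {c : κ → ℕ}
    (hr : ∀ s, r s ≤ 2) (hsum : ∑ j, c j = r 0 + r 1 + r 2) : T3 r c := by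
  apply T3_of_checkR _ hsum (checkR_small _ _ _ (hr 0) (hr 1) (hr 2))
  rw [Fin.sum_univ_three]
  have := hr 0
  have := hr 1
  have := hr 2
  omega

variable {ι κ : Type*} [Fintype ι] [DecidableEq ι] [Fintype κ] [DecidableEq κ]
  {r : ι → ℕ} {c : κ → ℕ}

theorem allT3_small (hr : ∀ i, r i ≤ 2) : AllT3 r c := by
  intro idx _ x₀
  apply T3_small (fun s => hr _)
  unfold margin
  rw [Finset.sum_comm, Fin.sum_univ_three]
  rw [x₀.2.1, x₀.2.1, x₀.2.1]

/-- Mixing of the chain when all row sums are at most two. -/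
theorem chain_mixing_small [Nonempty ι] [Nonempty κ] (hr : ∀ i, r i ≤ 2) (x₀ : Tab r c) (t : ℕ)
    (ht : mixT ι κ r ≤ t) :
    (1 / 2) * ∑ y, |(chain r c ^ t) x₀ y - 1 / (Fintype.card (Tab r c) : ℝ)| ≤ 1 / 4 :=
  chain_mixing (allT3_small hr) x₀ t ht

end Vale.Agent.Lib.P328
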