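import Vale.Agent.Lib.P335.Spectral
import Vale.Agent.Lib.P335.Mixing
import Vale.Agent.Lib.P335.Radial

set_option linter.unusedSectionVars false

/-!
Contingency tables: nonnegative integer matrices with prescribed row and column sums.
Averages over the rows of a set, commutation for disjoint sets, connectivity.
-/

namespace Vale.Agent.Lib.P328

open Finset Matrix Vale.Agent.Lib.P335

variable {ι κ : Type*} [Fintype ι] [DecidableEq ι] [Fintype κ] [DecidableEq κ]

/-- Margins condition for a table. -/
def IsTab (r : ι → ℕ) (c : κ → ℕ) (x : ι → κ → ℕ) : Prop :=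
  (∀ i, ∑ j, x i j = r i) ∧ ∀ j, ∑ i, x i j = c j

instance (r : ι → ℕ) (c : κ → ℕ) : DecidablePred (IsTab r c) := fun x => by
  unfold IsTab
  infer_instance

/-- Contingency tables with row sums `r` and column sums `c`. -/
abbrev Tab (r : ι → ℕ) (c : κ → ℕ) := {x : ι → κ → ℕ // IsTab r c x}

theorem entry_le {r : ι → ℕ} {c : κ → ℕ} {x : ι → κ → ℕ} (hx : IsTab r c x) (i : ι) (j : κ) :
    x i j ≤ c j := by
  rw [← hx.2 j]
  exact Finset.single_le_sum (f := fun a => x a j) (fun _ _ => Nat.zero_le _) (Finset.mem_univ i)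

instance (r : ι → ℕ) (c : κ → ℕ) : Fintype (Tab r c) :=
  Fintype.subtype
    ((Fintype.piFinset fun _ : ι => Fintype.piFinset fun j : κ => range (c j + 1)).filter
      (IsTab r c))
    (by
      intro x
      simp only [mem_filter, Fintype.mem_piFinset, mem_range, and_iff_right_iff_imp]
      intro hx i j
      have := entry_le hx i j
      omega)

variable {r : ι → ℕ} {c : κ → ℕ}

/-- Rows outside `P` agree. -/
def agree (P : Finset ι) (x y : Tab r c) : Prop := ∀ i, i ∉ P → x.1 i = y.1 i

instance (P : Finset ι) : DecidableRel (agree (r := r) (c := c) P) := fun x y => by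
  unfold agree
  infer_instance

theorem agree_equiv (P : Finset ι) : Equivalence (agree (r := r) (c := c) P) :=
  ⟨fun _ _ _ => rfl, fun h i hi => (h i hi).symm, fun h k i hi => (h i hi).trans (k i hi)⟩

theorem agree_mono {P P' : Finset ι} (h : P ⊆ P') {x y : Tab r c} (hxy : agree P x y) :
    agree P' x y := fun i hi => hxy i (fun hP => hi (h hP))

/-- Column total on a set of rows. -/
def colIn (P : Finset ι) (x : ι → κ → ℕ) (j : κ) : ℕ := ∑ i ∈ P, x i j

omit [Fintype κ] [DecidableEq κ] in
theorem col_split (P : Finset ι) (x : ι → κ → ℕ) (j : κ) :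
    ∑ i, x i j = colIn P x j + ∑ i ∈ Pᶜ, x i j := by
  unfold colIn
  rw [Finset.sum_add_sum_compl]

theorem colIn_eq_of_agree {P : Finset ι} {x y : Tab r c} (h : agree P x y) (j : κ) :
    colIn P x.1 j = colIn P y.1 j := by
  have h1 := col_split P x.1 j
  have h2 := col_split P y.1 j
  rw [x.2.2 j] at h1
  rw [y.2.2 j] at h2
  have h3 : ∑ i ∈ Pᶜ, x.1 i j = ∑ i ∈ Pᶜ, y.1 i j := by
    apply Finset.sum_congr rfl
    intro i hi
    rw [h i (by simpa using hi)]
  omega

/-- Rows on `P` from `a`, other rows from `b`. -/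
def fillVal (P : Finset ι) (a b : ι → κ → ℕ) : ι → κ → ℕ := fun i => if i ∈ P then a i else b i

theorem fill_isTab {P : Finset ι} {x y z : Tab r c} (hz : agree P x z)
    (hxy : ∀ i ∈ P, x.1 i = y.1 i) : IsTab r c (fillVal P z.1 y.1) := by
  constructor
  · intro i
    unfold fillVal
    by_cases hi : i ∈ P
    · simp only [hi, if_true]
      exact z.2.1 i
    · simp only [hi, if_false]
      exact y.2.1 i
  · intro j
    rw [← y.2.2 j, col_split P, col_split P y.1]
    congr 1
    · have e1 : colIn P (fillVal P z.1 y.1) j = colIn P z.1 j := by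
        unfold colIn
        apply Finset.sum_congr rfl
        intro i hi
        simp [fillVal, hi]
      have e2 : colIn P y.1 j = colIn P x.1 j := by
        unfold colIn
        apply Finset.sum_congr rfl
        intro i hi
        rw [hxy i hi]
      rw [e1, e2, colIn_eq_of_agree hz]
    · apply Finset.sum_congr rfl
      intro i hi
      have : i ∉ P := by simpa using hi
      simp [fillVal, this]

/-- The class bijection for disjoint row sets. -/
theorem sum_agree_disjoint {P P' : Finset ι} (hd : Disjoint P P') {x y : Tab r c}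
    (hxy : agree P x y) (g : Tab r c → ℝ) (hg : Meas (agree P) g) :
    ∑ z ∈ univ.filter (agree P' x), g z = ∑ z ∈ univ.filter (agree P' y), g z := by
  have hon : ∀ i ∈ P', x.1 i = y.1 i := fun i hi =>
    hxy i (fun hP => (Finset.disjoint_left.mp hd) hP hi)
  refine Finset.sum_bij'
    (fun z hz => (⟨fillVal P' z.1 y.1,
      fill_isTab (x := x) (by simpa using hz) hon⟩ : Tab r c))
    (fun z hz => (⟨fillVal P' z.1 x.1,
      fill_isTab (x := y) (by simpa using hz) (fun i hi => (hon i hi).symm)⟩ : Tab r c))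
    ?_ ?_ ?_ ?_ ?_
  · intro z hz
    simp only [mem_filter, mem_univ, true_and]
    intro i hi
    simp [fillVal, hi]
  · intro z hz
    simp only [mem_filter, mem_univ, true_and]
    intro i hi
    simp [fillVal, hi]
  · intro z hz
    apply Subtype.ext
    funext i
    simp only [mem_filter, mem_univ, true_and] at hz
    by_cases hi : i ∈ P'
    · simp [fillVal, hi]
    · simp only [fillVal, hi, if_false]
      exact hz i hi
  · intro z hz
    apply Subtype.ext
    funext i
    simp only [mem_filter, mem_univ, true_and] at hz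
    by_cases hi : i ∈ P'
    · simp [fillVal, hi]
    · simp only [fillVal, hi, if_false]
      exact hz i hi
  · intro z hz
    simp only [mem_filter, mem_univ, true_and] at hz
    apply hg
    intro i hi
    by_cases hi' : i ∈ P'
    · simp [fillVal, hi']
    · simp only [fillVal, hi', if_false]
      exact (hz i hi').symm.trans (hxy i hi)

theorem card_agree_disjoint {P P' : Finset ι} (hd : Disjoint P P') {x y : Tab r c}
    (hxy : agree P x y) :
    (univ.filter (agree P' x)).card = (univ.filter (agree P' y)).card := by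
  have := sum_agree_disjoint hd hxy (fun _ => (1 : ℝ)) (fun _ _ _ => rfl)
  simp only [Finset.sum_const, nsmul_eq_mul, mul_one] at this
  exact_mod_cast this

theorem avg_preserve {P P' : Finset ι} (hd : Disjoint P P') (g : Tab r c → ℝ)
    (hg : Meas (agree P) g) : Meas (agree P) (avg (agree P') g) := by
  intro x y hxy
  unfold avg
  rw [sum_agree_disjoint hd hxy g hg, card_agree_disjoint hd hxy]

/-- If `Meas` is preserved then averages commute (copied here to avoid a heavy import). -/
theorem eq_of_dot_eq' {Ω : Type*} [Fintype Ω] {u v : Ω → ℝ} (h : ∀ g, u ⬝ᵥ g = v ⬝ᵥ g) : u = v := by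
  have h1 := h (u - v)
  have h2 : (u - v) ⬝ᵥ (u - v) = 0 := by
    rw [sub_dotProduct, h1, sub_self]
  exact sub_eq_zero.mp (dot_self_eq_zero h2)

theorem avg_comm_of_preserve' {Ω : Type*} [Fintype Ω] {ρ σ : Ω → Ω → Prop} [DecidableRel ρ]
    [DecidableRel σ] (hρ : Equivalence ρ) (hσ : Equivalence σ)
    (h : ∀ g, Meas ρ g → Meas ρ (avg σ g)) (f : Ω → ℝ) :
    avg σ (avg ρ f) = avg ρ (avg σ f) := by
  have key : ∀ u, avg ρ (avg σ (avg ρ u)) = avg σ (avg ρ u) := fun u =>
    avg_of_meas hρ (h _ (avg_meas hρ u))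
  apply eq_of_dot_eq'
  intro g
  calc avg σ (avg ρ f) ⬝ᵥ g = avg ρ (avg σ (avg ρ f)) ⬝ᵥ g := by rw [key]
    _ = avg σ (avg ρ f) ⬝ᵥ avg ρ g := avg_dot hρ _ _
    _ = avg ρ f ⬝ᵥ avg σ (avg ρ g) := avg_dot hσ _ _
    _ = f ⬝ᵥ avg ρ (avg σ (avg ρ g)) := avg_dot hρ _ _
    _ = f ⬝ᵥ avg σ (avg ρ g) := by rw [key]
    _ = avg σ f ⬝ᵥ avg ρ g := (avg_dot hσ _ _).symm
    _ = avg ρ (avg σ f) ⬝ᵥ g := (avg_dot hρ _ _).symm

/-- Commutation of averages for disjoint sets of rows. -/
theorem avg_agree_comm {P P' : Finset ι} (hd : Disjoint P P') (f : Tab r c → ℝ) :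
    avg (agree P') (avg (agree P) f) = avg (agree P) (avg (agree P') f) :=
  avg_comm_of_preserve' (agree_equiv P) (agree_equiv P') (avg_preserve hd) f

/-- Complement of the average. -/
noncomputable def qA (P : Finset ι) : (Tab r c → ℝ) →ₗ[ℝ] (Tab r c → ℝ) :=
  LinearMap.id - avgL (agree P)

theorem qA_apply (P : Finset ι) (f : Tab r c → ℝ) : qA P f = f - avg (agree P) f := rfl

theorem qA_symm (P : Finset ι) (f g : Tab r c → ℝ) : qA P f ⬝ᵥ g = f ⬝ᵥ qA P g := by
  simp only [qA_apply, sub_dotProduct, dotProduct_sub, avg_dot (agree_equiv P)]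

theorem qA_idem (P : Finset ι) (f : Tab r c → ℝ) : qA P (qA P f) = qA P f := by
  simp only [qA_apply, avg_sub, avg_avg (agree_equiv P), sub_self, sub_zero]

theorem qA_comm {P P' : Finset ι} (hd : Disjoint P P') (f : Tab r c → ℝ) :
    qA P (qA P' f) = qA P' (qA P f) := by
  simp only [qA_apply, avg_sub, avg_agree_comm hd f]
  abel

theorem qA_dot (P : Finset ι) (f : Tab r c → ℝ) :
    qA P f ⬝ᵥ qA P f = f ⬝ᵥ f - avg (agree P) f ⬝ᵥ avg (agree P) f := by
  simp only [qA_apply, sub_dotProduct, dotProduct_sub]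
  have := avg_dot_avg (agree_equiv (r := r) (c := c) P) f
  rw [dotProduct_comm (avg (agree P) f) f, this]
  ring

/-- One row may vary alone only trivially. -/
theorem agree_single {k : ι} {x y : Tab r c} (h : agree {k} x y) : x = y := by
  apply Subtype.ext
  funext i
  by_cases hi : i = k
  · subst hi
    ext j
    have h1 := colIn_eq_of_agree h j
    unfold colIn at h1
    simpa only [Finset.sum_singleton] using h1
  · exact h i (by simpa using hi)

theorem qA_single (k : ι) (f : Tab r c → ℝ) : qA {k} f = 0 := by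
  rw [qA_apply, avg_of_meas (agree_equiv _), sub_self]
  intro x y h
  rw [agree_single h]

end Vale.Agent.Lib.P328
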