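import Vale.Agent.Lib.P328.LemmaA

set_option linter.unusedSectionVars false

/-!
From pairs of rows to minors with two rows and two columns.
-/

namespace Vale.Agent.Lib.P328

open Finset Matrix Vale.Agent.Lib.P335

variable {ι κ : Type*} [Fintype ι] [DecidableEq ι] [Fintype κ] [DecidableEq κ]
  {r : ι → ℕ} {c : κ → ℕ}

/-- Two tables differ at most on the minor with rows `k`, `l` and columns `j`, `j'`. -/
def cellRel (k l : ι) (j j' : κ) (x y : Tab r c) : Prop :=
  ∀ a b, (a ≠ k ∧ a ≠ l) ∨ (b ≠ j ∧ b ≠ j') → x.1 a b = y.1 a b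

instance (k l : ι) (j j' : κ) : DecidableRel (cellRel (r := r) (c := c) k l j j') := fun x y => by
  unfold cellRel
  infer_instance

theorem cellRel_equiv (k l : ι) (j j' : κ) : Equivalence (cellRel (r := r) (c := c) k l j j') :=
  ⟨fun _ _ _ _ => rfl, fun h a b hab => (h a b hab).symm,
    fun h h' a b hab => (h a b hab).trans (h' a b hab)⟩

theorem cellRel_agree {k l : ι} {j j' : κ} {x y : Tab r c} (h : cellRel k l j j' x y) :
    agree {k, l} x y := by
  intro a ha
  simp only [mem_insert, mem_singleton, not_or] at ha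
  funext b
  exact h a b (Or.inl ha)

section fiber

variable {k l : ι} (hkl : k ≠ l) (x₀ : Tab r c)

/-- Column totals of the rows `k`, `l`, as row sums of the transposed table. -/
def rowsT (x₀ : Tab r c) (k l : ι) (j : κ) : ℕ := x₀.1 k j + x₀.1 l j

/-- Row sums of rows `k`, `l`, as column sums of the transposed table. -/
def colsT (r : ι → ℕ) (k l : ι) : Fin 2 → ℕ := ![r k, r l]

/-- Insert a transposed table with two columns as rows `k` and `l`. -/
def ins2 (x₀ : Tab r c) (k l : ι) (w : κ → Fin 2 → ℕ) : ι → κ → ℕ := fun a b =>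
  if a = k then w b 0 else if a = l then w b 1 else x₀.1 a b

include hkl in
theorem ins2_isTab (w : Tab (rowsT x₀ k l) (colsT r k l)) : IsTab r c (ins2 x₀ k l w.1) := by
  constructor
  · intro a
    unfold ins2
    by_cases ha : a = k
    · subst ha
      simp only [if_true]
      have := w.2.2 0
      simpa [colsT] using this
    · by_cases ha' : a = l
      · subst ha'
        simp only [ha, if_true, if_false]
        have := w.2.2 1
        simpa [colsT] using this
      · simp only [ha, ha', if_false]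
        exact x₀.2.1 a
  · intro b
    have h1 : ∑ a, ins2 x₀ k l w.1 a b
        = colIn {k, l} (ins2 x₀ k l w.1) b + ∑ a ∈ ({k, l} : Finset ι)ᶜ, ins2 x₀ k l w.1 a b :=
      col_split _ _ _
    have h2 : ∑ a, x₀.1 a b = colIn {k, l} x₀.1 b + ∑ a ∈ ({k, l} : Finset ι)ᶜ, x₀.1 a b :=
      col_split _ _ _
    have h3 : ∑ a ∈ ({k, l} : Finset ι)ᶜ, ins2 x₀ k l w.1 a b
        = ∑ a ∈ ({k, l} : Finset ι)ᶜ, x₀.1 a b := by
      apply Finset.sum_congr rfl
      intro a ha
      simp only [mem_compl, mem_insert, mem_singleton, not_or] at ha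
      simp [ins2, ha.1, ha.2]
    have h4 : colIn {k, l} (ins2 x₀ k l w.1) b = colIn {k, l} x₀.1 b := by
      unfold colIn
      rw [Finset.sum_pair hkl, Finset.sum_pair hkl]
      have h5 := w.2.1 b
      rw [Fin.sum_univ_two] at h5
      simp only [ins2, if_true, hkl.symm, if_false]
      rw [h5]
      rfl
    rw [h1, h3, h4, ← h2]
    exact x₀.2.2 b

/-- The fiber map for the rows `k`, `l`. -/
def glue2 (w : Tab (rowsT x₀ k l) (colsT r k l)) : Tab r c := ⟨ins2 x₀ k l w.1, ins2_isTab hkl x₀ w⟩

theorem glue2_k (w : Tab (rowsT x₀ k l) (colsT r k l)) (b : κ) :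
    (glue2 hkl x₀ w).1 k b = w.1 b 0 := by
  simp [glue2, ins2]

theorem glue2_l (w : Tab (rowsT x₀ k l) (colsT r k l)) (b : κ) :
    (glue2 hkl x₀ w).1 l b = w.1 b 1 := by
  simp [glue2, ins2, hkl.symm]

theorem glue2_off (w : Tab (rowsT x₀ k l) (colsT r k l)) {a : ι} (h1 : a ≠ k) (h2 : a ≠ l) (b : κ) :
    (glue2 hkl x₀ w).1 a b = x₀.1 a b := by
  simp [glue2, ins2, h1, h2]

theorem glue2_inj : Function.Injective (glue2 hkl x₀) := by
  intro w w' h
  apply Subtype.ext
  funext b e
  fin_cases e
  · have := congrFun (congrFun (congrArg Subtype.val h) k) b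
    rw [glue2_k, glue2_k] at this
    exact this
  · have := congrFun (congrFun (congrArg Subtype.val h) l) b
    rw [glue2_l, glue2_l] at this
    exact this

theorem agree_glue2 (w : Tab (rowsT x₀ k l) (colsT r k l)) : agree {k, l} x₀ (glue2 hkl x₀ w) := by
  intro a ha
  simp only [mem_insert, mem_singleton, not_or] at ha
  funext b
  exact (glue2_off hkl x₀ w ha.1 ha.2 b).symm

theorem glue2_surj {y : Tab r c} (h : agree {k, l} x₀ y) : ∃ w, glue2 hkl x₀ w = y := by
  have hw : IsTab (rowsT x₀ k l) (colsT r k l) (fun b e => if e = 0 then y.1 k b else y.1 l b) := by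
    constructor
    · intro b
      rw [Fin.sum_univ_two]
      simp only [if_true, one_ne_zero, if_false]
      have := colIn_eq_of_agree h b
      unfold colIn at this
      rw [Finset.sum_pair hkl, Finset.sum_pair hkl] at this
      exact this.symm
    · intro e
      fin_cases e
      · simpa [colsT] using y.2.1 k
      · simpa [colsT] using y.2.1 l
  refine ⟨⟨_, hw⟩, ?_⟩
  apply Subtype.ext
  funext a b
  by_cases h1 : a = k
  · subst h1
    rw [glue2_k]
    simp
  · by_cases h2 : a = l
    · subst h2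
      rw [glue2_l]
      simp
    · rw [glue2_off hkl x₀ _ h1 h2]
      have h3 : a ∉ ({k, l} : Finset ι) := by
        simp [h1, h2]
      rw [h a h3]

theorem sum_class_glue2 (F : Tab r c → ℝ) :
    ∑ y ∈ univ.filter (agree {k, l} x₀), F y = ∑ w, F (glue2 hkl x₀ w) := by
  have : univ.filter (agree {k, l} x₀) = univ.map ⟨glue2 hkl x₀, glue2_inj hkl x₀⟩ := by
    ext y
    simp only [mem_filter, mem_univ, true_and, mem_map, Function.Embedding.coeFn_mk]
    constructor
    · intro hy
      exact glue2_surj hkl x₀ hy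
    · rintro ⟨w, rfl⟩
      exact agree_glue2 hkl x₀ w
  rw [this, Finset.sum_map]
  rfl

theorem avg_glue2_top (f : Tab r c → ℝ) (w : Tab (rowsT x₀ k l) (colsT r k l)) :
    avg (agree {k, l}) f (glue2 hkl x₀ w) = avg relTop (f ∘ glue2 hkl x₀) w := by
  apply avg_glue (glue2 hkl x₀) (glue2_inj hkl x₀)
  · intro w w'
    simp only [relTop, iff_true]
    exact (agree_equiv _).trans ((agree_equiv _).symm (agree_glue2 hkl x₀ w)) (agree_glue2 hkl x₀ w')
  · intro w y hy
    exact glue2_surj hkl x₀ ((agree_equiv _).trans (agree_glue2 hkl x₀ w) hy)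

theorem avg_glue2_cell (j j' : κ) (f : Tab r c → ℝ) (w : Tab (rowsT x₀ k l) (colsT r k l)) :
    avg (cellRel k l j j') f (glue2 hkl x₀ w) = avg (agree {j, j'}) (f ∘ glue2 hkl x₀) w := by
  apply avg_glue (glue2 hkl x₀) (glue2_inj hkl x₀)
  · intro w w'
    constructor
    · intro h b hb
      simp only [mem_insert, mem_singleton, not_or] at hb
      funext e
      fin_cases e
      · have := h k b (Or.inr hb)
        rw [glue2_k, glue2_k] at this
        exact this
      · have := h l b (Or.inr hb)
        rw [glue2_l, glue2_l] at this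
        exact this
    · intro h a b hab
      by_cases h1 : a = k
      · subst h1
        rw [glue2_k, glue2_k]
        rcases hab with hab | hab
        · exact absurd rfl hab.1
        · have hb : b ∉ ({j, j'} : Finset κ) := by simp [hab.1, hab.2]
          rw [h b hb]
      · by_cases h2 : a = l
        · subst h2
          rw [glue2_l, glue2_l]
          rcases hab with hab | hab
          · exact absurd rfl hab.2
          · have hb : b ∉ ({j, j'} : Finset κ) := by simp [hab.1, hab.2]
            rw [h b hb]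
        · rw [glue2_off hkl x₀ _ h1 h2, glue2_off hkl x₀ _ h1 h2]
  · intro w y hy
    have h1 := cellRel_agree hy
    exact glue2_surj hkl x₀ ((agree_equiv _).trans (agree_glue2 hkl x₀ w) h1)

end fiber

/-- All the three row conditions hold for tables with two columns. -/
theorem allT3_two_col {ι' : Type*} [Fintype ι'] [DecidableEq ι'] (r' : ι' → ℕ) (c' : Fin 2 → ℕ) :
    AllT3 r' c' := fun _ _ _ => T3_two_col _ _

/-- Complement of the average over a minor. -/
noncomputable def qC (k l : ι) (j j' : κ) (f : Tab r c → ℝ) : Tab r c → ℝ :=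
  f - avg (cellRel k l j j') f

theorem qC_dot (k l : ι) (j j' : κ) (f : Tab r c → ℝ) :
    qC k l j j' f ⬝ᵥ qC k l j j' f = f ⬝ᵥ f - avg (cellRel k l j j') f ⬝ᵥ avg (cellRel k l j j') f := by
  unfold qC
  simp only [sub_dotProduct, dotProduct_sub]
  have := avg_dot_avg (cellRel_equiv (r := r) (c := c) k l j j') f
  rw [dotProduct_comm (avg (cellRel k l j j') f) f, this]
  ring

/-- The variance in a fiber of two rows is bounded by the minors. -/
theorem two_row_bound {k l : ι} (hkl : k ≠ l) (f : Tab r c → ℝ) :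
    qA {k, l} f ⬝ᵥ qA {k, l} f ≤ (1 / 2) * ∑ j, ∑ j', qC k l j j' f ⬝ᵥ qC k l j j' f := by
  rw [qA_dot]
  let F : Tab r c → ℝ := fun x => (1 / 2) * ∑ j, ∑ j', qC k l j j' f x * qC k l j j' f x
    - f x * f x + avg (agree {k, l}) f x * avg (agree {k, l}) f x
  have hF : 0 ≤ ∑ x, F x := by
    apply sum_nonneg_of_classes (agree_equiv {k, l})
    intro x₀
    rw [sum_class_glue2 hkl x₀ F]
    set G := glue2 hkl x₀ with hG
    set h := f ∘ G with hh
    have e1 : ∀ w, avg (agree {k, l}) f (G w) = avg relTop h w := avg_glue2_top hkl x₀ f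
    have e2 : ∀ j j' w, qC k l j j' f (G w) = qA {j, j'} h w := by
      intro j j' w
      unfold qC
      rw [qA_apply]
      simp only [Pi.sub_apply]
      rw [avg_glue2_cell hkl x₀ j j' f w]
      rfl
    have hb := tab_gap (allT3_two_col (rowsT x₀ k l) (colsT r k l)) h
    have e3 : ∑ w, F (G w) = (1 / 2) * ∑ j, ∑ j', qA {j, j'} h ⬝ᵥ qA {j, j'} h
        - h ⬝ᵥ h + avg relTop h ⬝ᵥ avg relTop h := by
      simp only [F, e1, e2]
      unfold dotProduct
      rw [Finset.sum_add_distrib, Finset.sum_sub_distrib, ← Finset.mul_sum]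
      congr 3
      rw [Finset.sum_comm]
      apply Finset.sum_congr rfl
      intro j _
      rw [Finset.sum_comm]
    rw [e3]
    linarith
  have e4 : ∑ x, F x = (1 / 2) * ∑ j, ∑ j', qC k l j j' f ⬝ᵥ qC k l j j' f
      - f ⬝ᵥ f + avg (agree {k, l}) f ⬝ᵥ avg (agree {k, l}) f := by
    simp only [F]
    unfold dotProduct
    rw [Finset.sum_add_distrib, Finset.sum_sub_distrib, ← Finset.mul_sum]
    congr 3
    rw [Finset.sum_comm]
    apply Finset.sum_congr rfl
    intro j _
    rw [Finset.sum_comm]
  rw [e4] at hF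
  linarith

/-- The variance bound from the three row condition, with minors. -/
theorem minor_gap (hT : AllT3 r c) (f : Tab r c → ℝ) :
    f ⬝ᵥ f - avg relTop f ⬝ᵥ avg relTop f
      ≤ (1 / 4) * ∑ k, ∑ l, ∑ j, ∑ j', qC k l j j' f ⬝ᵥ qC k l j j' f := by
  have h1 := tab_gap hT f
  have hb : ∀ k l : ι, qA {k, l} f ⬝ᵥ qA {k, l} f
      ≤ (1 / 2) * ∑ j, ∑ j', qC k l j j' f ⬝ᵥ qC k l j j' f := by
    intro k l
    by_cases hkl : k = l
    · subst hkl
      rw [Finset.pair_eq_singleton, qA_single]
      simp only [dotProduct_zero]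
      apply mul_nonneg (by norm_num)
      exact Finset.sum_nonneg (fun _ _ => Finset.sum_nonneg (fun _ _ => dot_self_nonneg _))
    · exact two_row_bound hkl f
  have hsum := Finset.sum_le_sum (fun k (_ : k ∈ univ) =>
    Finset.sum_le_sum (fun l (_ : l ∈ univ) => hb k l))
  simp only [← Finset.mul_sum] at hsum
  linarith

end Vale.Agent.Lib.P328
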